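import Mathlib

/-!
Dilated counting operators for translational tilings, Frobenius congruences and the
dilation lemma.
-/

namespace Vale.Agent.Lib.P043

open Finset

variable {G : Type*} [AddCommGroup G]

/-- The dilated counting operator: `T F s φ g` is the sum of `φ (g - s • f)` over `f` in `F`. -/
noncomputable def T {R : Type*} [AddCommMonoid R] (F : Finset G) (s : ℕ) (φ : G → R) : G → R :=
  fun g => ∑ f ∈ F, φ (g - s • f)

lemma T_apply {R : Type*} [AddCommMonoid R] (F : Finset G) (s : ℕ) (φ : G → R) (g : G) :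
    T F s φ g = ∑ f ∈ F, φ (g - s • f) := rfl

lemma T_comm {R : Type*} [AddCommMonoid R] (F : Finset G) (s t : ℕ) (φ : G → R) (g : G) :
    T F s (T F t φ) g = T F t (T F s φ) g := by
  simp only [T_apply]
  rw [Finset.sum_comm]
  refine Finset.sum_congr rfl fun f _ => Finset.sum_congr rfl fun f' _ => ?_
  congr 1
  abel

lemma T_const {R : Type*} [NonAssocSemiring R] (F : Finset G) (s : ℕ) (c : R) (g : G) :
    T F s (fun _ => c) g = (F.card : R) * c := by
  simp [T_apply, Finset.sum_const, nsmul_eq_mul]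

section act

variable (k : Type*) [CommRing k]

/-- Translation action of the group on functions. -/
noncomputable def shiftHom : Multiplicative G →* Module.End k (G → k) where
  toFun h :=
    { toFun := fun φ g => φ (g - h.toAdd)
      map_add' := fun _ _ => rfl
      map_smul' := fun _ _ => rfl }
  map_one' := by
    ext φ g
    simp
  map_mul' := by
    intro a b
    ext φ g
    simp only [toAdd_mul, Module.End.mul_apply, LinearMap.coe_mk, AddHom.coe_mk]
    congr 1
    abel

/-- Action of the group algebra on functions. -/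
noncomputable def act : AddMonoidAlgebra k G →ₐ[k] Module.End k (G → k) :=
  AddMonoidAlgebra.lift k (Module.End k (G → k)) G (shiftHom k)

lemma act_single (h : G) (c : k) (φ : G → k) (g : G) :
    act k (AddMonoidAlgebra.single h c) φ g = c * φ (g - h) := by
  simp [act, shiftHom]

/-- The element of the group algebra that represents `T F s`. -/
noncomputable def E (F : Finset G) (s : ℕ) : AddMonoidAlgebra k G :=
  ∑ f ∈ F, AddMonoidAlgebra.single (s • f) (1 : k)

lemma act_E (F : Finset G) (s : ℕ) (φ : G → k) : act k (E k F s) φ = T F s φ := by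
  funext g
  simp [E, T_apply, act_single, map_sum, LinearMap.sum_apply, Finset.sum_apply]

end act

section frob

variable (ℓ : ℕ) [Fact ℓ.Prime]

instance charP_addMonoidAlgebra : CharP (AddMonoidAlgebra (ZMod ℓ) G) ℓ :=
  charP_of_injective_ringHom (f := (AddMonoidAlgebra.singleZeroRingHom :
    ZMod ℓ →+* AddMonoidAlgebra (ZMod ℓ) G))
    (by
      intro a b h
      have := congrArg (fun x => x.coeff 0) h
      simpa using this) ℓ

lemma E_pow_char (F : Finset G) (s m : ℕ) :
    (E (ZMod ℓ) F s) ^ (ℓ ^ m) = E (ZMod ℓ) F (ℓ ^ m * s) := by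
  unfold E
  rw [sum_pow_char_pow]
  refine Finset.sum_congr rfl fun f _ => ?_
  rw [AddMonoidAlgebra.single_pow, one_pow, mul_smul]

/-- Frobenius congruence for a function which `T F s` sends to a constant. -/
lemma frob_const (F : Finset G) (a : G → ℤ) (s m : ℕ) (c : ℤ)
    (h : ∀ g, T F s a g = c) (g : G) :
    ((T F (ℓ ^ m * s) a g : ℤ) : ZMod ℓ) =
      ((F.card : ZMod ℓ)) ^ (ℓ ^ m - 1) * (c : ZMod ℓ) := by
  set b : G → ZMod ℓ := fun x => (a x : ZMod ℓ) with hb
  have hcast : ∀ (t : ℕ) (x : G), ((T F t a x : ℤ) : ZMod ℓ) = T F t b x := by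
    intro t x
    simp [T_apply, hb]
  have h1 : T F s b = fun _ => (c : ZMod ℓ) := by
    funext x
    rw [← hcast, h]
  have key : ∀ n : ℕ, ((act (ZMod ℓ) (E (ZMod ℓ) F s)) ^ (n + 1)) b =
      fun _ => ((F.card : ZMod ℓ)) ^ n * (c : ZMod ℓ) := by
    intro n
    induction n with
    | zero =>
      simp only [zero_add, pow_one, act_E, h1, pow_zero, one_mul]
    | succ n ih =>
      rw [pow_succ', Module.End.mul_apply, ih, act_E]
      funext x
      rw [T_const, pow_succ']
      ring
  have hpos : 1 ≤ ℓ ^ m := Nat.one_le_pow _ _ (Fact.out : ℓ.Prime).pos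
  have hm : ℓ ^ m = (ℓ ^ m - 1) + 1 := (Nat.sub_add_cancel hpos).symm
  have h2 : T F (ℓ ^ m * s) b = ((act (ZMod ℓ) (E (ZMod ℓ) F s)) ^ (ℓ ^ m)) b := by
    rw [← map_pow, E_pow_char, act_E]
  rw [hcast, h2, hm, key]
  simp [← hm]

end frob

/-- A function is an `F`-tiling function when it is `0`-`1` valued and `T F 1` sends it to `1`. -/
structure IsTF (F : Finset G) (a : G → ℤ) : Prop where
  nonneg : ∀ g, a g = 0 ∨ a g = 1
  tile : ∀ g, T F 1 a g = 1

namespace IsTF

variable {F : Finset G} {a : G → ℤ}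

lemma a_nonneg (h : IsTF F a) (g : G) : 0 ≤ a g := by
  rcases h.nonneg g with h | h <;> simp [h]

lemma T_nonneg (h : IsTF F a) (s : ℕ) (g : G) : 0 ≤ T F s a g :=
  Finset.sum_nonneg fun _ _ => h.a_nonneg _

lemma nonempty (h : IsTF F a) : F.Nonempty := by
  by_contra hne
  rw [Finset.not_nonempty_iff_eq_empty] at hne
  have := h.tile 0
  simp [T_apply, hne] at this

/-- If `T F t` of the tiling function is nonnegative, constant averaging forces constancy. -/
lemma eq_of_ge (h : IsTF F a) (b : G → ℤ) (c : ℤ) (hge : ∀ g, c ≤ b g)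
    (hsum : ∀ g, T F 1 b g = (F.card : ℤ) * c) (g : G) : b g = c := by
  obtain ⟨f0, hf0⟩ := h.nonempty
  have h1 : ∑ f ∈ F, b (g + f0 - 1 • f) = ∑ f ∈ F, c := by
    have := hsum (g + f0)
    rw [T_apply] at this
    rw [this]
    simp [Finset.sum_const]
  have h2 := (Finset.sum_eq_sum_iff_of_le (fun i _ => hge _)).1 h1.symm
  have h3 := h2 f0 hf0
  simpa using h3.symm

/-- One dilation step by a prime not dividing the size of `F`. -/
lemma dilate_step (h : IsTF F a) {s ℓ : ℕ} (hs : ∀ g, T F s a g = 1) (hℓ : ℓ.Prime)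
    (hn : ¬ ℓ ∣ F.card) : ∀ g, T F (ℓ * s) a g = 1 := by
  have : Fact ℓ.Prime := ⟨hℓ⟩
  have hcong : ∀ g, ((T F (ℓ * s) a g : ℤ) : ZMod ℓ) = 1 := by
    intro g
    have := frob_const ℓ F a s 1 1 hs g
    rw [pow_one] at this
    rw [this]
    have hne : (F.card : ZMod ℓ) ≠ 0 := by
      rwa [Ne, ZMod.natCast_eq_zero_iff]
    simp [ZMod.pow_card_sub_one_eq_one hne]
  have hge : ∀ g, 1 ≤ T F (ℓ * s) a g := by
    intro g
    have h0 := h.T_nonneg (ℓ * s) g
    rcases h0.lt_or_eq with h1 | h1
    · omega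
    · have := hcong g
      rw [← h1] at this
      simp at this
  have hsum : ∀ g, T F 1 (T F (ℓ * s) a) g = (F.card : ℤ) * 1 := by
    intro g
    rw [T_comm]
    have : T F 1 a = fun _ => (1 : ℤ) := funext h.tile
    rw [this, T_const]
  exact fun g => h.eq_of_ge _ 1 hge hsum g

/-- Dilation lemma: `T F r a = 1` for `r` coprime to the size of `F`. -/
lemma dilate (h : IsTF F a) (hc : 1 < F.card) (r : ℕ) (hr : Nat.Coprime r F.card) :
    ∀ g, T F r a g = 1 := by
  induction r using induction_on_primes with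
  | zero =>
    exfalso
    rw [Nat.coprime_zero_left] at hr
    omega
  | one => exact h.tile
  | prime_mul p r' hp ih =>
    have hc1 : Nat.Coprime p F.card := Nat.Coprime.coprime_mul_right hr
    have hc2 : Nat.Coprime r' F.card := Nat.Coprime.coprime_mul_left hr
    refine h.dilate_step (ih hc2) hp ?_
    intro hd
    exact hp.one_lt.ne' (Nat.Coprime.eq_one_of_dvd hc1 hd)

/-- Frobenius: powers of a prime dividing the size of `F` give multiples of that prime. -/
lemma dvd_of_prime_dvd (h : IsTF F a) (hc : 1 < F.card) {ℓ j u : ℕ} (hℓ : ℓ.Prime)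
    (hd : ℓ ∣ F.card) (hj : 1 ≤ j) (hu : Nat.Coprime u F.card) (g : G) :
    (ℓ : ℤ) ∣ T F (ℓ ^ j * u) a g := by
  have : Fact ℓ.Prime := ⟨hℓ⟩
  have := frob_const ℓ F a u j 1 (h.dilate hc u hu) g
  have h0 : (F.card : ZMod ℓ) = 0 := by
    rwa [ZMod.natCast_eq_zero_iff]
  have h1 : ℓ ^ j - 1 ≠ 0 := by
    have : ℓ ≤ ℓ ^ j := Nat.le_self_pow (by omega) ℓ
    have := hℓ.two_le
    omega
  rw [h0, zero_pow h1, zero_mul] at this
  exact (ZMod.intCast_zmod_eq_zero_iff_dvd _ _).1 this

end IsTF

end Vale.Agent.Lib.P043
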