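import Mathlib

/-!
Periodic proper two-colourings of periodic graphs on finitely generated abelian groups.
-/

namespace Vale.Agent.Lib.P043

open Finset

variable {G : Type*} [AddCommGroup G]

/-- In a finitely generated abelian group a subgroup has a saturation exponent. -/
lemma exists_sat_exponent [Module.Finite ℤ G] (S : AddSubgroup G) :
    ∃ e : ℕ, 0 < e ∧ ∀ (k : G) (m : ℕ), 0 < m → m • k ∈ S → e • k ∈ S := by
  classical
  let W : Submodule ℤ G :=
    { carrier := {k | ∃ m : ℕ, 0 < m ∧ m • k ∈ S}
      add_mem' := by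
        rintro a b ⟨m, hm, ha⟩ ⟨n, hn, hb⟩
        refine ⟨m * n, Nat.mul_pos hm hn, ?_⟩
        rw [smul_add]
        refine S.add_mem ?_ ?_
        · rw [mul_comm, mul_smul]
          exact S.nsmul_mem ha n
        · rw [mul_smul]
          exact S.nsmul_mem hb m
      zero_mem' := ⟨1, one_pos, by simp [S.zero_mem]⟩
      smul_mem' := by
        rintro c a ⟨m, hm, ha⟩
        refine ⟨m, hm, ?_⟩
        rw [smul_comm]
        exact S.zsmul_mem ha c }
  have hfg : W.FG := IsNoetherian.noetherian W
  obtain ⟨s, hs⟩ := hfg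
  have hex : ∀ x ∈ s, ∃ m : ℕ, 0 < m ∧ m • x ∈ S := by
    intro x hx
    have : x ∈ W := by
      rw [← hs]
      exact Submodule.subset_span hx
    exact this
  choose! n hn0 hn using hex
  refine ⟨∏ x ∈ s, n x, Finset.prod_pos fun x hx => hn0 x hx, ?_⟩
  have key : ∀ x ∈ Submodule.span ℤ (s : Set G), (∏ x ∈ s, n x) • x ∈ S := by
    intro x hx
    induction hx using Submodule.span_induction with
    | mem y hy =>
      obtain ⟨d, hd⟩ : n y ∣ ∏ x ∈ s, n x := Finset.dvd_prod_of_mem _ hy
      rw [hd, mul_comm, mul_smul]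
      exact S.nsmul_mem (hn y hy) d
    | zero => simp [S.zero_mem]
    | add a b _ _ iha ihb =>
      rw [smul_add]
      exact S.add_mem iha ihb
    | smul c a _ iha =>
      rw [smul_comm]
      exact S.zsmul_mem iha c
  intro k m hm hk
  have hkW : k ∈ W := ⟨m, hm, hk⟩
  rw [← hs] at hkW
  exact key k hkW

section coloring

variable {Adj : G → G → Prop} {b : ℕ}

/-- Connectivity in the graph. -/
abbrev Reach (Adj : G → G → Prop) : G → G → Prop := Relation.EqvGen Adj

lemma reach_translate (hinv : ∀ x y k, Adj x y → Adj (x + b • k) (y + b • k)) (k : G) {x y : G}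
    (h : Reach Adj x y) : Reach Adj (x + b • k) (y + b • k) := by
  induction h with
  | rel x y h => exact Relation.EqvGen.rel _ _ (hinv x y k h)
  | refl x => exact Relation.EqvGen.refl _
  | symm x y _ ih => exact Relation.EqvGen.symm _ _ ih
  | trans x y z _ _ ih1 ih2 => exact Relation.EqvGen.trans _ _ _ ih1 ih2

lemma reach_parity (hinv : ∀ x y k, Adj x y → Adj (x + b • k) (y + b • k)) {V : G → Bool}
    (hV : ∀ x y, Adj x y → V x ≠ V y) (k : G) {x y : G} (h : Reach Adj x y) :
    (V (x + b • k) = V x ↔ V (y + b • k) = V y) := by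
  induction h with
  | rel x y h =>
    have h1 := hV x y h
    have h2 := hV _ _ (hinv x y k h)
    cases h3 : V x <;> cases h4 : V y <;> cases h5 : V (x + b • k) <;>
      cases h6 : V (y + b • k) <;> simp_all
  | refl x => exact Iff.rfl
  | symm x y _ ih => exact ih.symm
  | trans x y z _ _ ih1 ih2 => exact ih1.trans ih2

/-- The stabilizer of the component of `x` among the multiples of `b`. -/
def stab (hinv : ∀ x y k, Adj x y → Adj (x + b • k) (y + b • k)) (x : G) : AddSubgroup G where
  carrier := {T | ∃ k, T = b • k ∧ Reach Adj x (x + T)}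
  zero_mem' := ⟨0, by simp, by simpa using Relation.EqvGen.refl _⟩
  add_mem' := by
    rintro S T ⟨k, rfl, h1⟩ ⟨l, rfl, h2⟩
    refine ⟨k + l, by rw [smul_add], ?_⟩
    have h3 := reach_translate hinv k h2
    have h4 : x + b • l + b • k = x + (b • k + b • l) := by abel
    rw [h4] at h3
    exact Relation.EqvGen.trans _ _ _ h1 (by
      have h5 : x + b • k = x + b • k := rfl
      exact h3 |> fun h6 => by simpa [add_comm] using h6)
  neg_mem' := by
    rintro T ⟨k, rfl, h1⟩
    refine ⟨-k, by rw [smul_neg], ?_⟩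
    have h3 := reach_translate hinv (-k) h1
    have h4 : x + b • k + b • (-k) = x := by rw [smul_neg]; abel
    have h5 : x + b • (-k) = x + -(b • k) := by rw [smul_neg]
    rw [h4, h5] at h3
    exact Relation.EqvGen.symm _ _ h3

lemma mem_stab_iff (hinv : ∀ x y k, Adj x y → Adj (x + b • k) (y + b • k)) (x T : G) :
    T ∈ stab hinv x ↔ ∃ k, T = b • k ∧ Reach Adj x (x + T) := Iff.rfl

lemma stab_translate (hinv : ∀ x y k, Adj x y → Adj (x + b • k) (y + b • k)) (x k T : G)
    (hT : T ∈ stab hinv x) : T ∈ stab hinv (x + b • k) := by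
  obtain ⟨l, rfl, h1⟩ := hT
  refine ⟨l, rfl, ?_⟩
  have h3 := reach_translate hinv k h1
  have h4 : x + b • l + b • k = x + b • k + b • l := by abel
  rwa [h4] at h3

lemma parity_double (hinv : ∀ x y k, Adj x y → Adj (x + b • k) (y + b • k)) {V : G → Bool}
    (hV : ∀ x y, Adj x y → V x ≠ V y) {x T : G} (hT : T ∈ stab hinv x) :
    V (x + (2 : ℕ) • T) = V x := by
  obtain ⟨l, rfl, h1⟩ := hT
  have h2 := reach_parity hinv hV l h1
  have h3 : x + (2 : ℕ) • (b • l) = x + b • l + b • l := by
    rw [two_smul]
    abel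
  rw [h3]
  cases h4 : V x <;> cases h5 : V (x + b • l) <;> cases h6 : V (x + b • l + b • l) <;> simp_all

/-- A periodic graph with a proper two-colouring has a periodic proper two-colouring. -/
theorem periodic_coloring [Module.Finite ℤ G] (hb : 0 < b)
    (hinv : ∀ x y k, Adj x y → Adj (x + b • k) (y + b • k)) {V : G → Bool}
    (hV : ∀ x y, Adj x y → V x ≠ V y) :
    ∃ M : ℕ, 0 < M ∧ b ∣ M ∧ ∃ V' : G → Bool, (∀ x y, Adj x y → V' x ≠ V' y) ∧
      ∀ x k, V' (x + M • k) = V' x := by
  classical
  -- a uniform exponent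
  let K : AddSubgroup G := (nsmulAddMonoidHom (α := G) b).range
  have hfin : Finite (G ⧸ K) := by
    have hfg : AddGroup.FG G := Module.Finite.iff_addGroup_fg.1 inferInstance
    refine AddCommGroup.finite_of_fg_isAddTorsion (G ⧸ K) ?_
    intro y
    obtain ⟨x, rfl⟩ := QuotientAddGroup.mk_surjective y
    refine isOfFinAddOrder_iff_nsmul_eq_zero.2 ⟨b, hb, ?_⟩
    rw [← QuotientAddGroup.mk_nsmul, QuotientAddGroup.eq_zero_iff]
    exact ⟨x, rfl⟩
  let _ := Fintype.ofFinite (G ⧸ K)
  have hexp : ∀ c : G ⧸ K, ∃ e : ℕ, 0 < e ∧ ∀ (k : G) (m : ℕ), 0 < m →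
      m • k ∈ stab hinv (Quotient.out c) → e • k ∈ stab hinv (Quotient.out c) :=
    fun c => exists_sat_exponent _
  choose e he0 he using hexp
  set E0 : ℕ := ∏ c : G ⧸ K, e c with hE0
  have hE0pos : 0 < E0 := Finset.prod_pos fun c _ => he0 c
  set M : ℕ := 2 * E0 * b with hM
  have hMpos : 0 < M := by positivity
  have hbM : b ∣ M := Dvd.intro_left _ rfl
  obtain ⟨M', hM'⟩ := hbM
  -- closed walks ending at a translate by a multiple of `M` are even
  have hstab_x : ∀ x T, T ∈ stab hinv x → T ∈ stab hinv (Quotient.out (QuotientAddGroup.mk x : G ⧸ K)) := by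
    intro x T hT
    have h1 : (QuotientAddGroup.mk (Quotient.out (QuotientAddGroup.mk x : G ⧸ K)) : G ⧸ K) =
        QuotientAddGroup.mk x := Quotient.out_eq _
    obtain ⟨k0, hk0⟩ := QuotientAddGroup.eq.1 h1
    have h2 : Quotient.out (QuotientAddGroup.mk x : G ⧸ K) = x + b • (-k0) := by
      have h3 : b • k0 = -Quotient.out (QuotientAddGroup.mk x : G ⧸ K) + x := hk0
      rw [smul_neg, h3]
      abel
    rw [h2]
    exact stab_translate hinv x (-k0) T hT
  have hstab_x' : ∀ x T, T ∈ stab hinv (Quotient.out (QuotientAddGroup.mk x : G ⧸ K)) → T ∈ stab hinv x := by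
    intro x T hT
    have h1 : (QuotientAddGroup.mk (Quotient.out (QuotientAddGroup.mk x : G ⧸ K)) : G ⧸ K) =
        QuotientAddGroup.mk x := Quotient.out_eq _
    obtain ⟨k0, hk0⟩ := QuotientAddGroup.eq.1 h1
    have h2 : x = Quotient.out (QuotientAddGroup.mk x : G ⧸ K) + b • k0 := by
      have h3 : b • k0 = -Quotient.out (QuotientAddGroup.mk x : G ⧸ K) + x := hk0
      rw [h3]
      abel
    have h4 := stab_translate hinv _ k0 T hT
    rwa [← h2] at h4
  have hW : ∀ (x k : G), Reach Adj x (x + M • k) → V (x + M • k) = V x := by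
    intro x k hR
    set c : G ⧸ K := QuotientAddGroup.mk x with hc
    obtain ⟨d, hd⟩ : e c ∣ E0 := Finset.dvd_prod_of_mem _ (Finset.mem_univ c)
    have hMk : M • k ∈ stab hinv x := ⟨M' • k, by rw [hM', mul_smul], hR⟩
    have h1 := hstab_x x _ hMk
    have h2 : M = (2 * e c) * (d * b) := by rw [hM, hd]; ring
    have h3 : (2 * e c) • ((d * b) • k) ∈ stab hinv (Quotient.out c) := by
      rw [← mul_smul, ← h2]
      exact h1
    have h4 := he c _ (2 * e c) (by have := he0 c; omega) h3
    have h5 := hstab_x' x _ h4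
    have h6 := parity_double hinv hV h5
    have h7 : (2 : ℕ) • e c • (d * b) • k = M • k := by
      rw [← mul_smul, ← mul_smul, ← h2]
    rwa [h7] at h6
  -- the orbit relation
  let s : Setoid G :=
    { r := fun x y => ∃ k, Reach Adj (x + M • k) y
      iseqv :=
        { refl := fun x => ⟨0, by simpa using Relation.EqvGen.refl _⟩
          symm := by
            rintro x y ⟨k, hk⟩
            refine ⟨-k, ?_⟩
            have h1 := reach_translate hinv (M' • (-k)) hk
            have h2 : x + M • k + b • M' • -k = x := by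
              rw [← mul_smul, ← hM', smul_neg]
              abel
            have h3 : y + b • M' • -k = y + M • -k := by rw [← mul_smul, ← hM']
            rw [h2, h3] at h1
            exact Relation.EqvGen.symm _ _ h1
          trans := by
            rintro x y z ⟨k, hk⟩ ⟨l, hl⟩
            refine ⟨k + l, ?_⟩
            have h1 := reach_translate hinv (M' • l) hk
            have h3 : x + M • k + b • M' • l = x + M • (k + l) := by
              rw [← mul_smul, ← hM', smul_add]
              abel
            have h4 : y + b • M' • l = y + M • l := by rw [← mul_smul, ← hM']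
            rw [h3, h4] at h1
            exact Relation.EqvGen.trans _ _ _ h1 hl } }
  let rep : G → G := fun x => Quotient.out (Quotient.mk s x)
  have hrep : ∀ x, s.r x (rep x) := by
    intro x
    have h1 : Quotient.mk s (rep x) = Quotient.mk s x := Quotient.out_eq _
    exact s.symm (Quotient.exact h1)
  have hrep_eq : ∀ x y, s.r x y → rep x = rep y := by
    intro x y h
    have h1 : Quotient.mk s x = Quotient.mk s y := Quotient.sound h
    simp only [rep, h1]
  choose kk hkk using hrep
  have hKey : ∀ x k, Reach Adj (x + M • k) (rep x) → V (x + M • k) = V (x + M • kk x) := by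
    intro x k hk
    have h1 : Reach Adj (x + M • k) (x + M • kk x) :=
      Relation.EqvGen.trans _ _ _ hk (Relation.EqvGen.symm _ _ (hkk x))
    have h2 : x + M • kk x = x + M • k + M • (kk x - k) := by
      rw [smul_sub]
      abel
    have h3 := hW (x + M • k) (kk x - k) (by rw [← h2]; exact h1)
    rw [← h2] at h3
    exact h3.symm
  refine ⟨M, hMpos, Dvd.intro _ hM'.symm, fun x => V (x + M • kk x), ?_, ?_⟩
  · intro x y hxy
    have hsr : s.r x y := ⟨0, by simpa using Relation.EqvGen.rel _ _ hxy⟩
    have hr := hrep_eq x y hsr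
    have h1 : Adj (x + M • kk x) (y + M • kk x) := by
      have := hinv x y (M' • kk x) hxy
      rwa [← mul_smul, ← hM'] at this
    have h2 := hV _ _ h1
    have h3 : Reach Adj (y + M • kk x) (rep y) := by
      rw [← hr]
      exact Relation.EqvGen.trans _ _ _ (Relation.EqvGen.symm _ _ (Relation.EqvGen.rel _ _ h1))
        (hkk x)
    show V (x + M • kk x) ≠ V (y + M • kk y)
    rw [← hKey y _ h3]
    exact h2
  · intro x l
    have hsr : s.r x (x + M • l) := ⟨l, Relation.EqvGen.refl _⟩
    have hr := hrep_eq x _ hsr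
    have h1 := hkk (x + M • l)
    rw [← hr] at h1
    have h2 : x + M • l + M • kk (x + M • l) = x + M • (l + kk (x + M • l)) := by
      rw [smul_add]
      abel
    rw [h2] at h1
    show V (x + M • l + M • kk (x + M • l)) = V (x + M • kk x)
    rw [h2]
    exact hKey x _ h1

end coloring

end Vale.Agent.Lib.P043
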