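import Mathlib

/-!
A periodic tiling from a two-class structure: one character separates two classes by a
half, and a second character maps each class bijectively to a coset of a finite subgroup.
-/

namespace Vale.Agent.Lib.P043

open Finset

variable {G H : Type*} [AddCommGroup G] [AddCommGroup H]

/-- Chosen representatives of the cosets of a subgroup. -/
def repSet (U : AddSubgroup H) : Set H :=
  {x | Quotient.out (QuotientAddGroup.mk x : H ⧸ U) = x}

lemma mk_out_eq (U : AddSubgroup H) (y : H ⧸ U) :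
    (QuotientAddGroup.mk (Quotient.out y) : H ⧸ U) = y := Quotient.out_eq y

lemma repSet_exists (U : AddSubgroup H) (x : H) : ∃ u ∈ U, x - u ∈ repSet U := by
  refine ⟨x - Quotient.out (QuotientAddGroup.mk x : H ⧸ U), ?_, ?_⟩
  · have h1 := mk_out_eq U (QuotientAddGroup.mk x : H ⧸ U)
    have h2 := QuotientAddGroup.eq.1 h1
    have h3 : x - Quotient.out (QuotientAddGroup.mk x : H ⧸ U) =
        -Quotient.out (QuotientAddGroup.mk x : H ⧸ U) + x := by abel
    rw [h3]
    exact h2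
  · show Quotient.out (QuotientAddGroup.mk _ : H ⧸ U) = _
    have h4 : x - (x - Quotient.out (QuotientAddGroup.mk x : H ⧸ U)) =
        Quotient.out (QuotientAddGroup.mk x : H ⧸ U) := by abel
    rw [h4, mk_out_eq]

lemma repSet_unique (U : AddSubgroup H) {x u u' : H} (hu : u ∈ U) (hu' : u' ∈ U)
    (h : x - u ∈ repSet U) (h' : x - u' ∈ repSet U) : u = u' := by
  have h1 : (QuotientAddGroup.mk (x - u) : H ⧸ U) = QuotientAddGroup.mk (x - u') := by
    rw [QuotientAddGroup.eq]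
    have : -(x - u) + (x - u') = u - u' := by abel
    rw [this]
    exact U.sub_mem hu hu'
  have h2 : x - u = x - u' := by
    have h3 : Quotient.out (QuotientAddGroup.mk (x - u) : H ⧸ U) = x - u := h
    have h4 : Quotient.out (QuotientAddGroup.mk (x - u') : H ⧸ U) = x - u' := h'
    rw [← h3, ← h4, h1]
  exact sub_right_inj.1 h2

variable {F F0 F1 : Finset G}

/-- One side of the case split in the tiling proof. -/
lemma etype_side {A : Set G} (β : G →+ H) {C : Finset G} {b : H} (U : AddSubgroup H)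
    (hβ : ∀ f ∈ C, β f - b ∈ U) (inj : ∀ f ∈ C, ∀ f' ∈ C, β f = β f' → f = f')
    (sur : ∀ u ∈ U, ∃ f ∈ C, β f - b = u) (hCF : C ⊆ F) (g : G)
    (hA : ∀ f ∈ C, g - f ∈ A ↔ β (g - f) ∈ repSet U)
    (hout : ∀ f ∈ F, f ∉ C → g - f ∉ A) : ∃! f, f ∈ F ∧ g - f ∈ A := by
  obtain ⟨u, hu, hur⟩ := repSet_exists U (β g - b)
  obtain ⟨f, hf, hfu⟩ := sur u hu
  have key : ∀ f' ∈ C, β (g - f') = (β g - b) - (β f' - b) := by
    intro f' _
    rw [map_sub]
    abel
  refine ⟨f, ⟨hCF hf, ?_⟩, ?_⟩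
  · rw [hA f hf, key f hf, hfu]
    exact hur
  · rintro f' ⟨hf'F, hf'A⟩
    by_cases hf'C : f' ∈ C
    · rw [hA f' hf'C, key f' hf'C] at hf'A
      have h1 := repSet_unique U (hβ f' hf'C) hu hf'A hur
      apply inj f' hf'C f hf
      have h2 : β f' - b = β f - b := by rw [h1, hfu]
      exact sub_left_inj.1 h2
    · exact absurd hf'A (hout f' hf'F hf'C)

lemma mem_zmultiples_of_two {h x : H} (h2 : (2 : ℕ) • h = 0) (hx : x ∈ AddSubgroup.zmultiples h) :
    x = 0 ∨ x = h := by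
  obtain ⟨k, rfl⟩ := AddSubgroup.mem_zmultiples_iff.1 hx
  have h3 : k = 2 * (k / 2) + k % 2 := (Int.mul_ediv_add_emod k 2).symm
  have h4 : (2 * (k / 2)) • h = 0 := by
    rw [mul_comm, mul_smul]
    have : (2 : ℤ) • h = 0 := by
      rw [← natCast_zsmul] at h2
      exact_mod_cast h2
    rw [this, smul_zero]
  rcases Int.emod_two_eq_zero_or_one k with h5 | h5
  · left
    rw [h3, h5, add_zero, h4]
  · right
    rw [h3, h5, add_smul, h4, zero_add, one_smul]

/-- The tiling built from the two characters. -/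
theorem etype_tile (hF0 : F0 ⊆ F) (hF1 : F1 ⊆ F) (hcov : ∀ f ∈ F, f ∈ F0 ∨ f ∈ F1) (α β : G →+ H) (c0 h : H)
    (hh : h ≠ 0) (h2 : (2 : ℕ) • h = 0) (hα0 : ∀ f ∈ F0, α f = c0) (hα1 : ∀ f ∈ F1, α f = c0 + h)
    (U : AddSubgroup H) (b0 b1 : H) (hβ0 : ∀ f ∈ F0, β f - b0 ∈ U) (hβ1 : ∀ f ∈ F1, β f - b1 ∈ U)
    (inj0 : ∀ f ∈ F0, ∀ f' ∈ F0, β f = β f' → f = f')
    (inj1 : ∀ f ∈ F1, ∀ f' ∈ F1, β f = β f' → f = f')
    (sur0 : ∀ u ∈ U, ∃ f ∈ F0, β f - b0 = u) (sur1 : ∀ u ∈ U, ∃ f ∈ F1, β f - b1 = u) :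
    ∃ A : Set G, (∀ g, ∃! f, f ∈ F ∧ g - f ∈ A) ∧
      ∀ M : ℕ, (∀ x, M • α x = 0) → (∀ x, M • β x = 0) → ∀ g k, g + M • k ∈ A ↔ g ∈ A := by
  classical
  set V := AddSubgroup.zmultiples h with hV
  have hhV : h ∈ V := AddSubgroup.mem_zmultiples h
  refine ⟨{g | α g ∈ repSet V ∧ β g ∈ repSet U}, ?_, ?_⟩
  · intro g
    obtain ⟨v, hv, hvr⟩ := repSet_exists V (α g - c0)
    have hαg0 : ∀ f ∈ F0, α (g - f) = α g - c0 := by
      intro f hf
      rw [map_sub, hα0 f hf]
    have hαg1 : ∀ f ∈ F1, α (g - f) = (α g - c0) - h := by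
      intro f hf
      rw [map_sub, hα1 f hf]
      abel
    rcases mem_zmultiples_of_two h2 hv with rfl | rfl
    · rw [sub_zero] at hvr
      have hnot : (α g - c0) - h ∉ repSet V := by
        intro hc
        have h3 := repSet_unique V (x := α g - c0) (u := 0) (u' := h) V.zero_mem hhV
          (by rwa [sub_zero]) hc
        exact hh h3.symm
      refine etype_side β U hβ0 inj0 sur0 hF0 g ?_ ?_
      · intro f hf
        simp only [Set.mem_ofPred_eq, hαg0 f hf]
        exact ⟨fun hc => hc.2, fun hc => ⟨hvr, hc⟩⟩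
      · intro f hf hfC
        have hf1 : f ∈ F1 := (hcov f hf).resolve_left hfC
        simp only [Set.mem_ofPred_eq, hαg1 f hf1]
        exact fun hc => hnot hc.1
    · have hnot : (α g - c0) ∉ repSet V := by
        intro hc
        have h3 := repSet_unique V (x := α g - c0) (u := 0) (u' := v) V.zero_mem hhV
          (by rwa [sub_zero]) hvr
        exact hh h3.symm
      refine etype_side β U hβ1 inj1 sur1 hF1 g ?_ ?_
      · intro f hf
        simp only [Set.mem_ofPred_eq, hαg1 f hf]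
        exact ⟨fun hc => hc.2, fun hc => ⟨hvr, hc⟩⟩
      · intro f hf hfC
        have hf0 : f ∈ F0 := (hcov f hf).resolve_right hfC
        simp only [Set.mem_ofPred_eq, hαg0 f hf0]
        exact fun hc => hnot hc.1
  · intro M hMα hMβ g k
    simp only [Set.mem_ofPred_eq, map_add, map_nsmul, hMα, hMβ, add_zero]

/-- A homomorphism from a finitely generated group to a torsion group has finite exponent. -/
lemma exists_exponent [Module.Finite ℤ G] (hH : ∀ x : H, ∃ n : ℕ, 0 < n ∧ n • x = 0) (γ : G →+ H) :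
    ∃ M : ℕ, 0 < M ∧ ∀ x, M • γ x = 0 := by
  classical
  obtain ⟨S, hS⟩ := (Module.Finite.fg_top : (⊤ : Submodule ℤ G).FG)
  choose n hn0 hn using hH
  refine ⟨∏ y ∈ S, n (γ y), Finset.prod_pos fun y _ => hn0 _, fun x => ?_⟩
  have hx : x ∈ Submodule.span ℤ (S : Set G) := by rw [hS]; trivial
  induction hx using Submodule.span_induction with
  | mem y hy =>
    obtain ⟨d, hd⟩ : n (γ y) ∣ ∏ y ∈ S, n (γ y) := Finset.dvd_prod_of_mem _ hy
    rw [hd, mul_comm, mul_smul, hn, smul_zero]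
  | zero => simp
  | add a b _ _ ha hb => rw [map_add, smul_add, ha, hb, add_zero]
  | smul c a _ ha => rw [map_zsmul, smul_comm, ha, smul_zero]

/-- Every element of the rational circle has finite order. -/
lemma ratCircle_torsion (x : AddCircle (1 : ℚ)) : ∃ n : ℕ, 0 < n ∧ n • x = 0 := by
  obtain ⟨r, rfl⟩ := QuotientAddGroup.mk_surjective x
  refine ⟨r.den, r.den_pos, ?_⟩
  rw [← QuotientAddGroup.mk_nsmul, QuotientAddGroup.eq_zero_iff]
  rw [AddSubgroup.mem_zmultiples_iff]
  refine ⟨r.num, ?_⟩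
  rw [nsmul_eq_mul, zsmul_eq_mul, mul_one]
  rw [mul_comm]
  exact (Rat.mul_den_eq_num r).symm

end Vale.Agent.Lib.P043
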