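import Vale.Agent.Lib.P043.Basic

/-!
The grid lemmas for tiles of size `2 * q`.
-/

namespace Vale.Agent.Lib.P043

open Finset

variable {G : Type*} [AddCommGroup G]

namespace IsTF

variable {F : Finset G} {a : G → ℤ} {q : ℕ}

lemma coprime_add (hq : q.Prime) (hq2 : q ≠ 2) {i u j u' : ℕ} (hi : 1 ≤ i)
    (hu : Nat.Coprime u (2 * q)) (hj : 1 ≤ j) (hu' : Nat.Coprime u' (2 * q)) :
    Nat.Coprime (2 ^ i * u + q ^ j * u') (2 * q) := by
  have hqodd : ¬ 2 ∣ q := by
    intro hd
    exact hq2 ((Nat.prime_dvd_prime_iff_eq Nat.prime_two hq).1 hd).symm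
  have h2u' : ¬ 2 ∣ u' := by
    intro hd
    have := Nat.Coprime.coprime_dvd_left hd hu'
    have h3 : Nat.Coprime 2 2 := Nat.Coprime.coprime_mul_right_right this
    simp at h3
  have hqu : ¬ q ∣ u := by
    intro hd
    have := Nat.Coprime.coprime_dvd_left hd hu
    have h3 : Nat.Coprime q q := Nat.Coprime.coprime_mul_left_right this
    simp at h3
    exact hq.one_lt.ne' h3
  have h2i : 2 ∣ 2 ^ i * u := Dvd.dvd.mul_right (dvd_pow_self 2 (by omega)) u
  have hqj : q ∣ q ^ j * u' := Dvd.dvd.mul_right (dvd_pow_self q (by omega)) u'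
  apply Nat.Coprime.mul_right
  · rw [Nat.coprime_comm, Nat.prime_two.coprime_iff_not_dvd, Nat.dvd_add_right h2i]
    intro hd
    rcases (Nat.Prime.dvd_mul Nat.prime_two).1 hd with hd | hd
    · exact hqodd (Nat.Prime.dvd_of_dvd_pow Nat.prime_two hd)
    · exact h2u' hd
  · rw [Nat.coprime_comm, hq.coprime_iff_not_dvd, Nat.dvd_add_left hqj]
    intro hd
    rcases (Nat.Prime.dvd_mul hq).1 hd with hd | hd
    · have := Nat.Prime.dvd_of_dvd_pow hq hd
      exact hqodd (by
        have h2 := (Nat.prime_dvd_prime_iff_eq hq Nat.prime_two).1 this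
        exact absurd h2 hq2)
    · exact hqu hd

lemma T_T_ge_of_T_add (h : IsTF F a) {s t : ℕ} (hst : ∀ g, T F (s + t) a g = 1) (g : G) :
    1 ≤ T F s (T F t a) g := by
  have h1 := hst g
  rw [T_apply] at h1
  obtain ⟨f, hf, hne⟩ := Finset.exists_ne_zero_of_sum_ne_zero (s := F)
    (f := fun f => a (g - (s + t) • f)) (by rw [h1]; exact one_ne_zero)
  have h2 : a (g - (s + t) • f) = 1 := by
    rcases h.nonneg (g - (s + t) • f) with h3 | h3
    · exact absurd h3 hne
    · exact h3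
  have h3 : T F t a (g - s • f) ≤ T F s (T F t a) g :=
    Finset.single_le_sum (f := fun x => T F t a (g - s • x))
      (fun i _ => h.T_nonneg _ _) hf
  have h4 : a (g - s • f - t • f) ≤ T F t a (g - s • f) :=
    Finset.single_le_sum (f := fun x => a (g - s • f - t • x))
      (fun i _ => h.a_nonneg _) hf
  have h5 : g - s • f - t • f = g - (s + t) • f := by
    rw [add_smul]
    abel
  rw [h5, h2] at h4
  omega

/-- The double sum identity on the grid. -/
lemma TT_eq (h : IsTF F a) (hq : q.Prime) (hq2 : q ≠ 2) (hF : F.card = 2 * q) {i u j u' : ℕ}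
    (hi : 1 ≤ i) (hu : Nat.Coprime u (2 * q)) (hj : 1 ≤ j) (hu' : Nat.Coprime u' (2 * q))
    (g : G) : T F (2 ^ i * u) (T F (q ^ j * u') a) g = 2 * q := by
  have hq1 := hq.one_lt
  have hc : 1 < F.card := by omega
  have hu0 : Nat.Coprime u F.card := by rw [hF]; exact hu
  have hu1 : Nat.Coprime u' F.card := by rw [hF]; exact hu'
  have hd2 : ∀ x, (2 : ℤ) ∣ T F (2 ^ i * u) (T F (q ^ j * u') a) x := by
    intro x
    rw [T_comm]
    refine Finset.dvd_sum fun f _ => ?_
    exact_mod_cast h.dvd_of_prime_dvd hc Nat.prime_two (by rw [hF]; exact dvd_mul_right 2 q)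
      hi hu0 _
  have hdq : ∀ x, (q : ℤ) ∣ T F (2 ^ i * u) (T F (q ^ j * u') a) x := by
    intro x
    refine Finset.dvd_sum fun f _ => ?_
    exact h.dvd_of_prime_dvd hc hq (by rw [hF]; exact dvd_mul_left q 2) hj hu1 _
  have hcop : IsCoprime (2 : ℤ) (q : ℤ) := by
    have : Nat.Coprime 2 q := by
      rw [Nat.prime_two.coprime_iff_not_dvd]
      intro hd
      exact hq2 ((Nat.prime_dvd_prime_iff_eq Nat.prime_two hq).1 hd).symm
    exact_mod_cast Nat.isCoprime_iff_coprime.2 this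
  have hst : ∀ x, T F (2 ^ i * u + q ^ j * u') a x = 1 :=
    h.dilate hc _ (by rw [hF]; exact coprime_add hq hq2 hi hu hj hu')
  have hge : ∀ x, (2 * q : ℤ) ≤ T F (2 ^ i * u) (T F (q ^ j * u') a) x := by
    intro x
    have h1 := h.T_T_ge_of_T_add hst x
    have h2 : (2 * q : ℤ) ∣ T F (2 ^ i * u) (T F (q ^ j * u') a) x :=
      hcop.mul_dvd (hd2 x) (hdq x)
    exact Int.le_of_dvd (by omega) h2
  have hsum : ∀ x, T F 1 (T F (2 ^ i * u) (T F (q ^ j * u') a)) x =
      (F.card : ℤ) * (2 * q) := by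
    intro x
    rw [T_comm]
    have h1 : T F 1 (T F (q ^ j * u') a) = T F (q ^ j * u') (T F 1 a) := funext (T_comm F _ _ _)
    have h2 : T F 1 a = fun _ => (1 : ℤ) := funext h.tile
    rw [h1, h2]
    have h3 : T F (q ^ j * u') (fun _ => (1 : ℤ)) = fun _ => (F.card : ℤ) := by
      funext y
      rw [T_const, mul_one]
    rw [h3, T_const, hF]
    push_cast
    ring
  exact h.eq_of_ge _ _ hge hsum g

/-- Values of the counting function at scale a power of `q`. -/
lemma T_val (h : IsTF F a) (hq : q.Prime) (hq2 : q ≠ 2) (hF : F.card = 2 * q) {j u' : ℕ}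
    (hj : 1 ≤ j) (hu' : Nat.Coprime u' (2 * q)) (x : G) :
    T F (q ^ j * u') a x = 0 ∨ T F (q ^ j * u') a x = q := by
  have hq1 := hq.one_lt
  have hc : 1 < F.card := by omega
  have hu1 : Nat.Coprime u' F.card := by rw [hF]; exact hu'
  have hdq : (q : ℤ) ∣ T F (q ^ j * u') a x :=
    h.dvd_of_prime_dvd hc hq (by rw [hF]; exact dvd_mul_left q 2) hj hu1 _
  obtain ⟨c, hc'⟩ := hdq
  have hnn := h.T_nonneg (q ^ j * u') x
  have hle : T F (q ^ j * u') a x ≤ 2 * q := by
    have : T F (q ^ j * u') a x ≤ ∑ _f ∈ F, (1 : ℤ) := by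
      refine Finset.sum_le_sum fun f _ => ?_
      rcases h.nonneg (x - (q ^ j * u') • f) with h1 | h1 <;> simp [h1]
    simpa [hF] using this
  have hqpos : (0 : ℤ) < q := by exact_mod_cast hq.pos
  have hc0 : 0 ≤ c := by
    by_contra hneg
    push Not at hneg
    have : (q : ℤ) * c < 0 := mul_neg_of_pos_of_neg hqpos hneg
    omega
  have hc2 : c ≤ 2 := by
    by_contra hneg
    push Not at hneg
    have : (q : ℤ) * 3 ≤ q * c := by
      apply mul_le_mul_of_nonneg_left (by omega) hqpos.le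
    omega
  have hc_ne : c ≠ 2 := by
    intro hc2'
    have hT : T F (q ^ j * u') a x = 2 * q := by rw [hc', hc2']; ring
    -- all terms equal one
    have hall : ∀ f ∈ F, a (x - (q ^ j * u') • f) = 1 := by
      have h1 : ∑ f ∈ F, a (x - (q ^ j * u') • f) = ∑ _f ∈ F, (1 : ℤ) := by
        rw [← T_apply, hT]
        simp [hF]
      have hle : ∀ f ∈ F, a (x - (q ^ j * u') • f) ≤ 1 := by
        intro f _
        rcases h.nonneg (x - (q ^ j * u') • f) with h2 | h2 <;> simp [h2]
      exact (Finset.sum_eq_sum_iff_of_le hle).1 h1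
    obtain ⟨f0, hf0⟩ := h.nonempty
    have h2 := h.TT_eq hq hq2 hF (i := 1) (u := 1) (le_refl 1) (by simp) hj hu' (x + (2 : ℕ) • f0)
    rw [T_comm] at h2
    have hpow : (2 ^ 1 * 1 : ℕ) = 2 := by norm_num
    have h3 : ∀ f ∈ F, (2 : ℤ) ≤ T F (2 ^ 1 * 1) a (x + (2 : ℕ) • f0 - (q ^ j * u') • f) := by
      intro f hf
      have hd : (2 : ℤ) ∣ T F (2 ^ 1 * 1) a (x + (2 : ℕ) • f0 - (q ^ j * u') • f) := by
        exact_mod_cast h.dvd_of_prime_dvd hc Nat.prime_two
          (by rw [hF]; exact dvd_mul_right 2 q) (j := 1) (u := 1) (le_refl 1)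
          (by simp) (x + (2 : ℕ) • f0 - (q ^ j * u') • f)
      have h4 : a (x + (2 : ℕ) • f0 - (q ^ j * u') • f - (2 ^ 1 * 1) • f0) ≤
          T F (2 ^ 1 * 1) a (x + (2 : ℕ) • f0 - (q ^ j * u') • f) :=
        Finset.single_le_sum (f := fun y => a (x + (2 : ℕ) • f0 - (q ^ j * u') • f - (2 ^ 1 * 1) • y))
          (fun i _ => h.a_nonneg _) hf0
      have h5 : x + (2 : ℕ) • f0 - (q ^ j * u') • f - (2 ^ 1 * 1) • f0 = x - (q ^ j * u') • f := by
        rw [hpow]
        abel
      rw [h5, hall f hf] at h4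
      exact Int.le_of_dvd (by omega) hd |> fun h6 => h6
    have h6 : ∑ _f ∈ F, (2 : ℤ) ≤ 2 * q := by
      rw [← h2, T_apply]
      exact Finset.sum_le_sum h3
    simp [hF] at h6
    omega
  have hc01 : c = 0 ∨ c = 1 := by omega
  rcases hc01 with h0 | h0
  · left; rw [hc', h0]; ring
  · right; rw [hc', h0]; ring

/-- `T F s` of the counting function at a `q` scale is constant for `s` not divisible by `q`. -/
lemma T_T_eq_card (h : IsTF F a) (hq : q.Prime) (hq2 : q ≠ 2) (hF : F.card = 2 * q) {j u' : ℕ}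
    (hj : 1 ≤ j) (hu' : Nat.Coprime u' (2 * q)) {s : ℕ} (hs : 1 ≤ s) (hqs : ¬ q ∣ s) (g : G) :
    T F s (T F (q ^ j * u') a) g = 2 * q := by
  have hq1 := hq.one_lt
  have hc : 1 < F.card := by omega
  obtain ⟨k, m, hm, hsm⟩ := Nat.exists_eq_two_pow_mul_odd (n := s) (by omega)
  have hqm : ¬ q ∣ m := fun hd => hqs (by rw [hsm]; exact Dvd.dvd.mul_left hd _)
  have hmc : Nat.Coprime m (2 * q) := by
    apply Nat.Coprime.mul_right
    · exact Nat.coprime_two_right.2 hm
    · rw [Nat.coprime_comm, hq.coprime_iff_not_dvd]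
      exact hqm
  rcases Nat.eq_zero_or_pos k with hk | hk
  · have hsm' : s = m := by rw [hsm, hk]; simp
    rw [T_comm]
    have h1 : T F s a = fun _ => (1 : ℤ) := by
      funext x
      apply h.dilate hc s
      rw [hF, hsm']
      exact hmc
    rw [h1, T_const, hF]
    push_cast
    ring
  · rw [hsm]
    exact h.TT_eq hq hq2 hF hk hmc hj hu' g

/-- Sections by a unit scale are again tiling functions. -/
lemma section_isTF (h : IsTF F a) (hc : 1 < F.card) {m : ℕ} (hm : Nat.Coprime m F.card) :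
    IsTF F (fun w => a (m • w)) := by
  refine ⟨fun g => h.nonneg _, fun g => ?_⟩
  have h1 := h.dilate hc m hm (m • g)
  rw [T_apply] at h1 ⊢
  rw [← h1]
  refine Finset.sum_congr rfl fun f _ => ?_
  congr 1
  rw [one_smul, smul_sub]

lemma T_section (m t : ℕ) (w : G) :
    T F t (fun w => a (m • w)) w = T F (m * t) a (m • w) := by
  simp only [T_apply]
  refine Finset.sum_congr rfl fun f _ => ?_
  congr 1
  rw [smul_sub, mul_smul]

end IsTF

end Vale.Agent.Lib.P043
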