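import Mathlib

/-!
Vanishing power sums in an integral domain of characteristic zero.
-/

namespace Vale.Agent.Lib.P043

open Finset Polynomial

variable {D : Type*} [CommRing D]

lemma vand_pol (Y : Finset D) (c : D → D) (n : ℕ)
    (h : ∀ k, k < n → ∑ y ∈ Y, c y * y ^ k = 0) (P : D[X]) (hP : P.natDegree < n) :
    ∑ y ∈ Y, c y * P.eval y = 0 := by
  have h1 : ∀ y, P.eval y = ∑ i ∈ Finset.range n, P.coeff i * y ^ i := fun y =>
    Polynomial.eval_eq_sum_range' hP y
  simp_rw [h1, Finset.mul_sum]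
  rw [Finset.sum_comm]
  refine Finset.sum_eq_zero fun i hi => ?_
  have h2 := h i (Finset.mem_range.1 hi)
  calc ∑ y ∈ Y, c y * (P.coeff i * y ^ i) = P.coeff i * ∑ y ∈ Y, c y * y ^ i := by
        rw [Finset.mul_sum]
        refine Finset.sum_congr rfl fun y _ => ?_
        ring
    _ = 0 := by rw [h2, mul_zero]

variable [IsDomain D]

lemma vand [DecidableEq D] (Y : Finset D) (c : D → D)
    (h : ∀ k, k < Y.card → ∑ y ∈ Y, c y * y ^ k = 0) : ∀ y ∈ Y, c y = 0 := by
  intro y hy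
  set P : D[X] := ∏ x ∈ Y.erase y, (X - C x) with hP
  have hdeg : P.natDegree < Y.card := by
    rw [hP, Polynomial.natDegree_finsetProd_X_sub_C_eq_card]
    rw [Finset.card_erase_of_mem hy]
    have := Finset.card_pos.2 ⟨y, hy⟩
    omega
  have h1 := vand_pol Y c _ h P hdeg
  rw [Finset.sum_eq_single_of_mem y hy] at h1
  · have h2 : P.eval y ≠ 0 := by
      rw [hP, Polynomial.eval_prod, Finset.prod_ne_zero_iff]
      intro x hx
      simp only [eval_sub, eval_X, eval_C]
      exact sub_ne_zero.2 (Finset.ne_of_mem_erase hx).symm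
    exact (mul_eq_zero.1 h1).resolve_right h2
  · intro x hx hne
    have : P.eval x = 0 := by
      rw [hP, Polynomial.eval_prod]
      apply Finset.prod_eq_zero (Finset.mem_erase.2 ⟨hne, hx⟩)
      simp
    rw [this, mul_zero]

variable {ι : Type*}

/-- Power sums that vanish off multiples of `q` vanish on each fibre of the `q`-th power. -/
lemma class_sum [DecidableEq D] (F : Finset ι) (u : ι → D) (q : ℕ)
    (H : ∀ s : ℕ, 1 ≤ s → ¬ q ∣ s → ∑ f ∈ F, u f ^ s = 0) (y : D) {s : ℕ} (hs : 1 ≤ s)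
    (hqs : ¬ q ∣ s) : ∑ f ∈ F.filter (fun f => u f ^ q = y), u f ^ s = 0 := by
  by_cases hy : y ∈ F.image (fun f => u f ^ q)
  · refine vand (F.image (fun f => u f ^ q))
      (fun y' => ∑ f ∈ F.filter (fun f => u f ^ q = y'), u f ^ s) ?_ y hy
    intro k _
    have h1 : ∑ y' ∈ F.image (fun f => u f ^ q),
        (∑ f ∈ F.filter (fun f => u f ^ q = y'), u f ^ s) * y' ^ k =
        ∑ f ∈ F, u f ^ (s + q * k) := by
      rw [← Finset.sum_fiberwise_of_maps_to (s := F) (t := F.image (fun f => u f ^ q))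
        (g := fun f => u f ^ q) (f := fun f => u f ^ (s + q * k))
        (fun f hf => Finset.mem_image_of_mem _ hf)]
      refine Finset.sum_congr rfl fun y' _ => ?_
      rw [Finset.sum_mul]
      refine Finset.sum_congr rfl fun f hf => ?_
      rw [(Finset.mem_filter.1 hf).2.symm, pow_add, pow_mul]
    rw [h1]
    refine H _ (by omega) ?_
    intro hd
    exact hqs ((Nat.dvd_add_left (Dvd.intro k rfl)).1 hd)
  · refine Finset.sum_eq_zero fun f hf => ?_
    exact absurd (Finset.mem_image.2 ⟨f, (Finset.mem_filter.1 hf).1, (Finset.mem_filter.1 hf).2⟩) hy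

lemma image_card_ge [DecidableEq D] [CharZero D] (C : Finset ι) (ρ : ι → D) {f0 : ι} (hf0 : f0 ∈ C)
    (hne : ρ f0 ≠ 0) (q : ℕ) (hs : ∀ s : ℕ, 1 ≤ s → s < q → ∑ f ∈ C, ρ f ^ s = 0) :
    q ≤ (C.image ρ).card := by
  by_contra hlt
  push Not at hlt
  have h1 := vand (C.image ρ)
    (fun ζ => ((C.filter (fun f => ρ f = ζ)).card : D) * ζ) (by
      intro k hk
      have h2 : ∑ f ∈ C, ρ f ^ (k + 1) = 0 := hs (k + 1) (by omega) (by omega)
      rw [← Finset.sum_fiberwise_of_maps_to (s := C) (t := C.image ρ)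
        (g := ρ) (f := fun f => ρ f ^ (k + 1))
        (fun f hf => Finset.mem_image_of_mem _ hf)] at h2
      rw [← h2]
      refine Finset.sum_congr rfl fun ζ _ => ?_
      have h3 : ∑ f ∈ C.filter (fun f => ρ f = ζ), ρ f ^ (k + 1) =
          ∑ _f ∈ C.filter (fun f => ρ f = ζ), ζ ^ (k + 1) := by
        refine Finset.sum_congr rfl fun f hf => ?_
        rw [(Finset.mem_filter.1 hf).2]
      rw [h3, Finset.sum_const, nsmul_eq_mul, pow_succ]
      ring) (ρ f0) (Finset.mem_image_of_mem _ hf0)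
  have h4 : ((C.filter (fun f => ρ f = ρ f0)).card : D) ≠ 0 := by
    rw [Nat.cast_ne_zero, Finset.card_ne_zero]
    exact ⟨f0, Finset.mem_filter.2 ⟨hf0, rfl⟩⟩
  exact (mul_ne_zero h4 hne) h1

/-- In each fibre of the `q`-th power the normalized values take at least `q` values. -/
lemma class_image_ge [DecidableEq D] [CharZero D] (F : Finset ι) (u : ι → Dˣ) {q : ℕ}
    (H : ∀ s : ℕ, 1 ≤ s → ¬ q ∣ s → ∑ f ∈ F, ((u f : Dˣ) : D) ^ s = 0) {f0 : ι} (hf0 : f0 ∈ F) :
    q ≤ ((F.filter (fun f => ((u f : Dˣ) : D) ^ q = ((u f0 : Dˣ) : D) ^ q)).image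
      (fun f => (((u f * (u f0)⁻¹ : Dˣ)) : D))).card := by
  refine image_card_ge (F.filter (fun f => ((u f : Dˣ) : D) ^ q = ((u f0 : Dˣ) : D) ^ q))
    (fun f => (((u f * (u f0)⁻¹ : Dˣ)) : D)) (f0 := f0) (Finset.mem_filter.2 ⟨hf0, rfl⟩)
    (Units.ne_zero _) q ?_
  intro s hs hsq
  have h1 := class_sum F (fun f => ((u f : Dˣ) : D)) q H (((u f0 : Dˣ) : D) ^ q) hs
    (fun hd => by
      have := Nat.le_of_dvd (by omega) hd
      omega)
  have h2 : ∀ f, (((u f * (u f0)⁻¹ : Dˣ)) : D) ^ s =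
      (((u f0)⁻¹ : Dˣ) : D) ^ s * ((u f : Dˣ) : D) ^ s := by
    intro f
    rw [Units.val_mul, mul_pow, mul_comm]
  simp_rw [h2]
  rw [← Finset.mul_sum, h1, mul_zero]

/-- A subset whose normalized values exhaust the `q`-th roots of unity maps bijectively
to the cyclic group generated by the image of a nontrivial root under a character. -/
lemma bal [DecidableEq D] {H : Type*} [AddCommGroup H] [DecidableEq H] {q : ℕ} (hq : q.Prime)
    (C : Finset ι) (w : ι → Dˣ) (hC : C.card = q) (hw : ∀ f ∈ C, (w f) ^ q = 1)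
    (himg : q ≤ (C.image (fun f => ((w f : Dˣ) : D))).card) (ζ : Dˣ) (hζ : ζ ^ q = 1) (hζ1 : ζ ≠ 1)
    (χ : Additive Dˣ →+ H) (hχ : χ (Additive.ofMul ζ) ≠ 0) :
    (∀ f ∈ C, χ (Additive.ofMul (w f)) ∈ AddSubgroup.zmultiples (χ (Additive.ofMul ζ))) ∧
    (∀ f ∈ C, ∀ f' ∈ C, χ (Additive.ofMul (w f)) = χ (Additive.ofMul (w f')) → f = f') ∧
    (∀ x ∈ AddSubgroup.zmultiples (χ (Additive.ofMul ζ)), ∃ f ∈ C,
      χ (Additive.ofMul (w f)) = x) := by
  set c := χ (Additive.ofMul ζ) with hc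
  have hqc : q • c = 0 := by
    rw [hc, ← map_nsmul, ← ofMul_pow, hζ]
    simp
  have : Fact q.Prime := ⟨hq⟩
  have hord : addOrderOf c = q := addOrderOf_eq_prime hqc hχ
  have hζD : ((ζ : Dˣ) : D) ^ q = 1 := by
    rw [← Units.val_pow_eq_pow_val, hζ, Units.val_one]
  have hζD1 : ((ζ : Dˣ) : D) ≠ 1 := fun h => hζ1 (Units.ext h)
  have hordD : orderOf ((ζ : Dˣ) : D) = q := orderOf_eq_prime hζD hζD1
  have hprim : IsPrimitiveRoot ((ζ : Dˣ) : D) q := by
    rw [← hordD]
    exact IsPrimitiveRoot.orderOf _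
  have hj : ∀ f ∈ C, ∃ j, j < q ∧ χ (Additive.ofMul (w f)) = j • c ∧ ((w f : Dˣ) : D) = (ζ : D) ^ j := by
    intro f hf
    have h1 : ((w f : Dˣ) : D) ^ q = 1 := by
      rw [← Units.val_pow_eq_pow_val, hw f hf, Units.val_one]
    obtain ⟨j, hjq, hj⟩ := hprim.eq_pow_of_pow_eq_one h1
    refine ⟨j, hjq, ?_, hj.symm⟩
    have h2 : w f = ζ ^ j := by
      apply Units.ext
      rw [Units.val_pow_eq_pow_val, hj]
    rw [h2, ofMul_pow, map_nsmul]
  have hinjD : Set.InjOn (fun f => ((w f : Dˣ) : D)) C := by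
    apply Finset.card_image_iff.1
    apply le_antisymm Finset.card_image_le
    rw [hC]
    exact himg
  have hinj : ∀ f ∈ C, ∀ f' ∈ C, χ (Additive.ofMul (w f)) = χ (Additive.ofMul (w f')) → f = f' := by
    intro f hf f' hf' he
    obtain ⟨j, hjq, hj1, hj2⟩ := hj f hf
    obtain ⟨j', hjq', hj1', hj2'⟩ := hj f' hf'
    have h3 : j • c = j' • c := by rw [← hj1, ← hj1', he]
    have h4 : j = j' := nsmul_injOn_Iio_addOrderOf (by rw [Set.mem_Iio, hord]; exact hjq)
      (by rw [Set.mem_Iio, hord]; exact hjq') h3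
    apply hinjD hf hf'
    simp only
    rw [hj2, hj2', h4]
  refine ⟨?_, hinj, ?_⟩
  · intro f hf
    obtain ⟨j, _, hj1, _⟩ := hj f hf
    rw [hj1]
    exact AddSubgroup.nsmul_mem _ (AddSubgroup.mem_zmultiples c) j
  · intro x hx
    set S := (Finset.range q).image (fun j => j • c) with hS
    set I := C.image (fun f => χ (Additive.ofMul (w f))) with hI
    have hIS : I ⊆ S := by
      intro y hy
      obtain ⟨f, hf, rfl⟩ := Finset.mem_image.1 hy
      obtain ⟨j, hjq, hj1, _⟩ := hj f hf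
      exact Finset.mem_image.2 ⟨j, Finset.mem_range.2 hjq, hj1.symm⟩
    have hIc : I.card = q := by
      rw [hI, Finset.card_image_of_injOn, hC]
      intro f hf f' hf' he
      exact hinj f hf f' hf' he
    have hSc : S.card ≤ q := by
      rw [hS]
      exact Finset.card_image_le.trans (by simp)
    have hEq : I = S := Finset.eq_of_subset_of_card_le hIS (by omega)
    have hxS : x ∈ S := by
      obtain ⟨k, rfl⟩ := AddSubgroup.mem_zmultiples_iff.1 hx
      have hqpos : (0 : ℤ) < q := by exact_mod_cast hq.pos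
      have h5 : k • c = (k % q).toNat • c := by
        have h6 : k % q = k - q * (k / q) := by
          rw [Int.emod_def]
        have h7 : ((k % q).toNat : ℤ) = k % q := Int.toNat_of_nonneg (Int.emod_nonneg _ hqpos.ne')
        rw [← natCast_zsmul, h7, h6, sub_smul, mul_comm, mul_smul, natCast_zsmul, hqc]
        simp
      rw [h5]
      refine Finset.mem_image.2 ⟨(k % q).toNat, Finset.mem_range.2 ?_, rfl⟩
      have h8 := Int.emod_lt_of_pos k hqpos
      have h9 := Int.emod_nonneg k hqpos.ne'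
      omega
    rw [← hEq] at hxS
    obtain ⟨f, hf, hfx⟩ := Finset.mem_image.1 hxS
    exact ⟨f, hf, hfx⟩

end Vale.Agent.Lib.P043
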