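import Vale.Agent.Lib.P043.Radical
import Vale.Agent.Lib.P043.PowerSum
import Vale.Agent.Lib.P043.Etype

/-!
Prime ideals over the dilation ideal of a tile of size `2 * q`.
-/

namespace Vale.Agent.Lib.P043

open Finset

variable {G : Type*} [AddCommGroup G]

/-- The subgroup generated by `F0` and the differences to `v` of the rest of `F`. -/
def Lprime (F F0 : Finset G) (v : G) : AddSubgroup G :=
  AddSubgroup.closure ((F0 : Set G) ∪ (fun f => f - v) '' ((F : Set G) \ (F0 : Set G)))

open Classical in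
/-- An odd multiplier that brings `v` into `Lprime`, when there is one. -/
noncomputable def oddK (F F0 : Finset G) (v : G) : ℕ :=
  if h : ∃ k : ℕ, Odd k ∧ k • v ∈ Lprime F F0 v then h.choose else 1

lemma oddK_odd (F F0 : Finset G) (v : G) : Odd (oddK F F0 v) := by
  unfold oddK
  split_ifs with h
  · exact h.choose_spec.1
  · exact odd_one

lemma oddK_mem {F F0 : Finset G} {v : G} (h : ∃ k : ℕ, Odd k ∧ k • v ∈ Lprime F F0 v) :
    oddK F F0 v • v ∈ Lprime F F0 v := by
  unfold oddK
  rw [dif_pos h]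
  exact h.choose_spec.2

/-- The uniform multiplier. -/
noncomputable def bigN (F : Finset G) (q : ℕ) : ℕ :=
  q * ∏ F0 ∈ F.powerset, ∏ v ∈ F, oddK F F0 v

lemma bigN_odd (F : Finset G) {q : ℕ} (hq : Odd q) : Odd (bigN F q) := by
  unfold bigN
  refine hq.mul ?_
  refine Finset.prod_induction _ Odd (fun a b ha hb => ha.mul hb) odd_one fun F0 _ => ?_
  exact Finset.prod_induction _ Odd (fun a b ha hb => ha.mul hb) odd_one fun v _ => oddK_odd F F0 v

lemma dvd_bigN {F F0 : Finset G} {v : G} (q : ℕ) (h0 : F0 ⊆ F) (hv : v ∈ F) :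
    q * oddK F F0 v ∣ bigN F q := by
  unfold bigN
  refine Nat.mul_dvd_mul_left q ?_
  exact (Finset.dvd_prod_of_mem _ hv).trans
    (Finset.dvd_prod_of_mem (fun F0 => ∏ v ∈ F, oddK F F0 v) (Finset.mem_powerset.2 h0))

/-- The main algebraic step for a homomorphism into the units of a domain. -/
lemma core {D : Type*} [CommRing D] [IsDomain D] [CharZero D] [Module.Finite ℤ G] (u : G → Dˣ)
    (hu0 : u 0 = 1) (huadd : ∀ a b, u (a + b) = u a * u b) {F : Finset G} {q : ℕ} (hq : q.Prime)
    (hq2 : q ≠ 2) (hF : F.card = 2 * q) (h0 : (0 : G) ∈ F)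
    (hgen : AddSubgroup.closure (F : Set G) = ⊤)
    (hno : ¬ ∃ A : Set G, (∀ g, ∃! f, f ∈ F ∧ g - f ∈ A) ∧
      ∃ M : ℕ, 0 < M ∧ ∀ g k, g + M • k ∈ A ↔ g ∈ A)
    (H : ∀ s : ℕ, 1 ≤ s → ¬ q ∣ s → ∑ f ∈ F, ((u f : Dˣ) : D) ^ s = 0) (w : G) :
    u (bigN F q • w) = 1 := by
  classical
  have hnsmul : ∀ (n : ℕ) (g : G), u (n • g) = u g ^ n := by
    intro n g
    induction n with
    | zero => simp [hu0]
    | succ n ih => rw [add_smul, one_smul, huadd, ih, pow_succ]
  have hneg : ∀ g, u (-g) = (u g)⁻¹ := by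
    intro g
    rw [eq_inv_iff_mul_eq_one, ← huadd, neg_add_cancel, hu0]
  have hsub : ∀ a b, u (a - b) = u a * (u b)⁻¹ := by
    intro a b
    rw [sub_eq_add_neg, huadd, hneg]
  have hq1 := hq.two_le
  suffices hgenF : ∀ f ∈ F, u (bigN F q • f) = 1 by
    have hw : w ∈ AddSubgroup.closure (F : Set G) := by rw [hgen]; trivial
    induction hw using AddSubgroup.closure_induction with
    | mem x hx => exact hgenF x hx
    | zero => simp [hu0]
    | add a b _ _ ha hb => rw [smul_add, huadd, ha, hb, one_mul]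
    | neg a _ ha => rw [smul_neg, hneg, ha, inv_one]
  set cls : G → Finset G := fun b => F.filter (fun f => ((u f : Dˣ) : D) ^ q = ((u b : Dˣ) : D) ^ q)
    with hcls
  have hge : ∀ b ∈ F, q ≤ ((cls b).image (fun f => (((u f * (u b)⁻¹ : Dˣ)) : D))).card :=
    fun b hb => class_image_ge F u H hb
  have hcard : ∀ b ∈ F, q ≤ (cls b).card := fun b hb => (hge b hb).trans Finset.card_image_le
  have hu0D : ((u 0 : Dˣ) : D) = 1 := by rw [hu0, Units.val_one]
  have hpowU : ∀ {a b : G}, ((u a : Dˣ) : D) ^ q = ((u b : Dˣ) : D) ^ q → u a ^ q = u b ^ q := by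
    intro a b hab
    apply Units.ext
    rw [Units.val_pow_eq_pow_val, Units.val_pow_eq_pow_val, hab]
  by_cases hall : ∀ f ∈ F, ((u f : Dˣ) : D) ^ q = 1
  · intro f hf
    obtain ⟨d, hd⟩ : q ∣ bigN F q := Dvd.intro _ rfl
    have h1 : u f ^ q = 1 := by
      apply Units.ext
      rw [Units.val_pow_eq_pow_val, hall f hf, Units.val_one]
    rw [hd, hnsmul, pow_mul, h1, one_pow]
  · push Not at hall
    obtain ⟨v, hvF, hv⟩ := hall
    set C0 := cls 0 with hC0
    set C1 := cls v with hC1
    have hmem0 : ∀ f, f ∈ C0 ↔ f ∈ F ∧ ((u f : Dˣ) : D) ^ q = 1 := by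
      intro f
      simp [hC0, hcls, hu0D]
    have hmem1 : ∀ f, f ∈ C1 ↔ f ∈ F ∧ ((u f : Dˣ) : D) ^ q = ((u v : Dˣ) : D) ^ q := by
      intro f
      simp [hC1, hcls]
    have hdisj : Disjoint C0 C1 := by
      rw [Finset.disjoint_left]
      intro f hf0 hf1
      exact hv (((hmem1 f).1 hf1).2.symm.trans ((hmem0 f).1 hf0).2)
    have hsub01 : C0 ∪ C1 ⊆ F := by
      intro f hf
      rcases Finset.mem_union.1 hf with h | h
      · exact ((hmem0 f).1 h).1
      · exact ((hmem1 f).1 h).1
    have hc0 : q ≤ C0.card := hcard 0 h0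
    have hc1 : q ≤ C1.card := hcard v hvF
    have hcu : (C0 ∪ C1).card = C0.card + C1.card := Finset.card_union_of_disjoint hdisj
    have hle := Finset.card_le_card hsub01
    have hC0q : C0.card = q := by omega
    have hC1q : C1.card = q := by omega
    have heq : C0 ∪ C1 = F := Finset.eq_of_subset_of_card_le hsub01 (by omega)
    have hcov : ∀ f ∈ F, f ∈ C0 ∨ f ∈ C1 := by
      intro f hf
      rw [← heq] at hf
      exact Finset.mem_union.1 hf
    have hout : ∀ f, f ∈ C1 → f ∉ C0 := fun f h1 h0' => Finset.disjoint_left.1 hdisj h0' h1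
    set L := Lprime F C0 v with hL
    have hsubC1 : ∀ f ∈ C1, f - v ∈ L := by
      intro f hf
      refine AddSubgroup.subset_closure (Or.inr ⟨f, ⟨?_, ?_⟩, rfl⟩)
      · exact ((hmem1 f).1 hf).1
      · exact fun h => hout f hf h
    have hsubC0 : ∀ f ∈ C0, f ∈ L := fun f hf => AddSubgroup.subset_closure (Or.inl hf)
    have hLu : ∀ l ∈ L, u (q • l) = 1 := by
      intro l hl
      induction hl using AddSubgroup.closure_induction with
      | mem x hx =>
        rcases hx with hx | ⟨f, ⟨hfF, hf0⟩, rfl⟩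
        · rw [hnsmul]
          apply Units.ext
          rw [Units.val_pow_eq_pow_val, ((hmem0 x).1 hx).2, Units.val_one]
        · have hf1 : f ∈ C1 := (hcov f hfF).resolve_left hf0
          rw [hnsmul]
          simp only
          rw [hsub, mul_pow, inv_pow, hpowU ((hmem1 f).1 hf1).2, mul_inv_cancel]
      | zero => simp [hu0]
      | add a b _ _ ha hb => rw [smul_add, huadd, ha, hb, one_mul]
      | neg a _ ha => rw [smul_neg, hneg, ha, inv_one]
    by_cases hvL : v ∈ L ⊔ AddSubgroup.zmultiples ((2 : ℕ) • v)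
    · -- the odd case
      obtain ⟨y, hy, z, hz, hyz⟩ := AddSubgroup.mem_sup.1 hvL
      obtain ⟨k', rfl⟩ := AddSubgroup.mem_zmultiples_iff.1 hz
      have hy' : y = (1 - 2 * k') • v := by
        have h1 : y = v - k' • (2 : ℕ) • v := eq_sub_of_add_eq hyz
        have h2 : (2 : ℤ) • v = (2 : ℕ) • v := by
          exact_mod_cast natCast_zsmul v 2
        rw [h1, sub_smul, one_smul, mul_comm, mul_smul, h2]
      have hex : ∃ k : ℕ, Odd k ∧ k • v ∈ L := by
        refine ⟨(1 - 2 * k').natAbs, ?_, ?_⟩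
        · rw [Int.natAbs_odd]
          exact ⟨-k', by ring⟩
        · rcases Int.natAbs_eq (1 - 2 * k') with h1 | h1
          · have h2 : ((1 - 2 * k').natAbs : ℤ) • v = y := by rw [← h1, hy']
            rw [natCast_zsmul] at h2
            rw [h2]
            exact hy
          · have h2 : ((1 - 2 * k').natAbs : ℤ) • v = -y := by
              have h3 : ((1 - 2 * k').natAbs : ℤ) = -(1 - 2 * k') := by linarith
              rw [h3, hy', neg_smul]
            rw [natCast_zsmul] at h2
            rw [h2]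
            exact L.neg_mem hy
      have hK := oddK_mem hex
      set K := oddK F C0 v with hKdef
      have hC0F : C0 ⊆ F := fun f hf => ((hmem0 f).1 hf).1
      intro f hf
      obtain ⟨d, hd⟩ : q * K ∣ bigN F q := dvd_bigN q hC0F hvF
      have h2 : u f ^ (q * K) = 1 := by
        rcases hcov f hf with h3 | h3
        · have h4 : u f ^ q = 1 := by
            apply Units.ext
            rw [Units.val_pow_eq_pow_val, ((hmem0 f).1 h3).2, Units.val_one]
          rw [pow_mul, h4, one_pow]
        · have h4 := hLu _ hK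
          rw [hnsmul, hnsmul, ← pow_mul, mul_comm K q] at h4
          rw [pow_mul, hpowU ((hmem1 f).1 h3).2, ← pow_mul, h4]
      rw [hd, hnsmul, pow_mul, h2, one_pow]
    · -- the two-class structure gives a tiling
      exfalso
      apply hno
      set L2 := L ⊔ AddSubgroup.zmultiples ((2 : ℕ) • v) with hL2
      have hmkv : (QuotientAddGroup.mk v : G ⧸ L2) ≠ 0 := by
        rwa [Ne, QuotientAddGroup.eq_zero_iff]
      obtain ⟨c, hc⟩ := CharacterModule.exists_character_apply_ne_zero_of_ne_zero hmkv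
      let c' : (G ⧸ L2) →+ AddCircle (1 : ℚ) := c
      let α : G →+ AddCircle (1 : ℚ) := c'.comp (QuotientAddGroup.mk' L2)
      have hαL : ∀ l ∈ L, α l = 0 := by
        intro l hl
        have h1 : (QuotientAddGroup.mk l : G ⧸ L2) = 0 :=
          (QuotientAddGroup.eq_zero_iff _).2 (AddSubgroup.mem_sup_left hl)
        show c' (QuotientAddGroup.mk l) = 0
        rw [h1, map_zero]
      have hα2 : (2 : ℕ) • α v = 0 := by
        rw [← map_nsmul]
        have h1 : (QuotientAddGroup.mk ((2 : ℕ) • v) : G ⧸ L2) = 0 :=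
          (QuotientAddGroup.eq_zero_iff _).2
            (AddSubgroup.mem_sup_right (AddSubgroup.mem_zmultiples _))
        show c' (QuotientAddGroup.mk _) = 0
        rw [h1, map_zero]
      have hαv : α v ≠ 0 := hc
      -- a nontrivial root of unity
      have hw0 : ∀ f, u f * (u 0)⁻¹ = u f := by
        intro f
        rw [hu0, inv_one, mul_one]
      have hzeta : ∃ f ∈ C0, u f ≠ 1 := by
        by_contra hcon
        push Not at hcon
        have h1 : (C0.image (fun f => (((u f * (u 0)⁻¹ : Dˣ)) : D))) ⊆ {1} := by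
          intro y hy
          obtain ⟨f, hf, rfl⟩ := Finset.mem_image.1 hy
          rw [hw0, hcon f hf, Units.val_one, Finset.mem_singleton]
        have h2 := Finset.card_le_card h1
        have h3 : q ≤ (C0.image (fun f => (((u f * (u 0)⁻¹ : Dˣ)) : D))).card := hge 0 h0
        rw [Finset.card_singleton] at h2
        omega
      obtain ⟨fz, hfz, hζ1⟩ := hzeta
      set ζ := u fz with hζdef
      have hζ : ζ ^ q = 1 := by
        apply Units.ext
        rw [Units.val_pow_eq_pow_val, ((hmem0 fz).1 hfz).2, Units.val_one]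
      have hζne : (Additive.ofMul ζ : Additive Dˣ) ≠ 0 := fun h => hζ1 h
      obtain ⟨χ, hχ⟩ := CharacterModule.exists_character_apply_ne_zero_of_ne_zero hζne
      let χ' : Additive Dˣ →+ AddCircle (1 : ℚ) := χ
      let β : G →+ AddCircle (1 : ℚ) := AddMonoidHom.mk' (fun g => χ' (Additive.ofMul (u g))) (by
        intro a b
        rw [huadd, ofMul_mul, map_add])
      have hβsub : ∀ f b, χ' (Additive.ofMul (u f * (u b)⁻¹)) = β f - β b := by
        intro f b
        rw [ofMul_mul, ofMul_inv, map_add, map_neg, sub_eq_add_neg]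
        rfl
      have hbal0 := bal hq C0 (fun f => u f * (u 0)⁻¹) hC0q
        (by
          intro f hf
          rw [hw0]
          apply Units.ext
          rw [Units.val_pow_eq_pow_val, ((hmem0 f).1 hf).2, Units.val_one])
        (hge 0 h0) ζ hζ hζ1 χ' hχ
      have hbal1 := bal hq C1 (fun f => u f * (u v)⁻¹) hC1q
        (by
          intro f hf
          rw [mul_pow, inv_pow, hpowU ((hmem1 f).1 hf).2, mul_inv_cancel])
        (hge v hvF) ζ hζ hζ1 χ' hχ
      simp only [hβsub] at hbal0 hbal1
      obtain ⟨hin0, hinj0, hsur0⟩ := hbal0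
      obtain ⟨hin1, hinj1, hsur1⟩ := hbal1
      obtain ⟨A, htile, hper⟩ := etype_tile (F := F) (F0 := C0) (F1 := C1)
        (fun f hf => ((hmem0 f).1 hf).1) (fun f hf => ((hmem1 f).1 hf).1) hcov α β
        0 (α v) hαv hα2
        (fun f hf => hαL f (hsubC0 f hf))
        (fun f hf => by
          have h1 := hαL _ (hsubC1 f hf)
          rw [map_sub, sub_eq_zero] at h1
          rw [h1, zero_add])
        (AddSubgroup.zmultiples (χ' (Additive.ofMul ζ))) (β 0) (β v) hin0 hin1
        (fun f hf f' hf' he => hinj0 f hf f' hf' (by rw [he]))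
        (fun f hf f' hf' he => hinj1 f hf f' hf' (by rw [he]))
        hsur0 hsur1
      obtain ⟨M1, hM1, hM1'⟩ := exists_exponent ratCircle_torsion α
      obtain ⟨M2, hM2, hM2'⟩ := exists_exponent ratCircle_torsion β
      refine ⟨A, htile, M1 * M2, Nat.mul_pos hM1 hM2, hper _ ?_ ?_⟩
      · intro x
        rw [mul_comm, mul_smul, hM1', smul_zero]
      · intro x
        rw [mul_smul, hM2', smul_zero]

end Vale.Agent.Lib.P043
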