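import Vale.Agent.Lib.P043.Grid
import Vale.Agent.Lib.P043.Prime
import Vale.Agent.Lib.P043.Coloring

/-!
Tiles of size `2 * q` admit periodic tilings, in a finitely generated abelian group generated
by the tile.
-/

namespace Vale.Agent.Lib.P043

open Finset

variable {G : Type*} [AddCommGroup G]

/-- The radical of the dilation ideal contains the binomials with uniform exponent. -/
lemma radical_mem [Module.Finite ℤ G] {F : Finset G} {q : ℕ} (hq : q.Prime) (hq2 : q ≠ 2)
    (hF : F.card = 2 * q) (h0 : (0 : G) ∈ F) (hgen : AddSubgroup.closure (F : Set G) = ⊤)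
    (hno : ¬ ∃ A : Set G, (∀ g, ∃! f, f ∈ F ∧ g - f ∈ A) ∧
      ∃ M : ℕ, 0 < M ∧ ∀ g k, g + M • k ∈ A ↔ g ∈ A) (w : G) :
    (AddMonoidAlgebra.single (bigN F q • w) (1 : ℚ) - 1 : AddMonoidAlgebra ℚ G) ∈
      (J F q).radical := by
  rw [Ideal.radical_eq_sInf, Ideal.mem_sInf]
  rintro P ⟨hJ, hP⟩
  have : P.IsPrime := hP
  let D := AddMonoidAlgebra ℚ G ⧸ P
  have : CharZero D := algebraRat.charZero D
  let f0 : Multiplicative G →* D :=
    (Ideal.Quotient.mk P).toMonoidHom.comp (AddMonoidAlgebra.of ℚ G)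
  let u : G → Dˣ := fun g => f0.toHomUnits (Multiplicative.ofAdd g)
  have hu : ∀ g, ((u g : Dˣ) : D) = Ideal.Quotient.mk P (AddMonoidAlgebra.single g 1) := by
    intro g
    rfl
  have hu0 : u 0 = 1 := by
    show f0.toHomUnits (Multiplicative.ofAdd 0) = 1
    rw [ofAdd_zero, map_one]
  have huadd : ∀ a b, u (a + b) = u a * u b := by
    intro a b
    show f0.toHomUnits (Multiplicative.ofAdd (a + b)) = _
    rw [ofAdd_add, map_mul]
  have H : ∀ s : ℕ, 1 ≤ s → ¬ q ∣ s → ∑ f ∈ F, ((u f : Dˣ) : D) ^ s = 0 := by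
    intro s hs hqs
    have h1 : E ℚ F s ∈ P := hJ (Ideal.subset_span ⟨s, hs, hqs, rfl⟩)
    have h2 : Ideal.Quotient.mk P (E ℚ F s) = 0 := Ideal.Quotient.eq_zero_iff_mem.2 h1
    rw [← h2]
    unfold E
    rw [map_sum]
    refine Finset.sum_congr rfl fun f _ => ?_
    rw [hu, ← map_pow, AddMonoidAlgebra.single_pow, one_pow]
  have h1 := core u hu0 huadd hq hq2 hF h0 hgen hno H w
  have h2 : ((u (bigN F q • w) : Dˣ) : D) = 1 := by rw [h1, Units.val_one]
  rw [hu] at h2
  have h3 : Ideal.Quotient.mk P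
      (AddMonoidAlgebra.single (bigN F q • w) (1 : ℚ) - 1 : AddMonoidAlgebra ℚ G) = 0 := by
    rw [map_sub, h2, map_one, sub_self]
  exact Ideal.Quotient.eq_zero_iff_mem.1 h3

lemma isTF_ind {F : Finset G} {A : Set G} (hA : ∀ g, ∃! f, f ∈ F ∧ g - f ∈ A) :
    IsTF F (A.indicator (fun _ => (1 : ℤ))) := by
  classical
  refine ⟨fun g => ?_, fun g => ?_⟩
  · by_cases h : g ∈ A
    · right
      simp [h]
    · left
      simp [h]
  · obtain ⟨f, ⟨hf, hfA⟩, huniq⟩ := hA g
    rw [T_apply, Finset.sum_eq_single f]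
    · simp [hfA]
    · intro f' hf' hne
      apply Set.indicator_of_notMem
      intro hc
      rw [one_smul] at hc
      exact hne (huniq f' ⟨hf', hc⟩)
    · exact fun hc => absurd hf hc

lemma IsTF.exists_unique {F : Finset G} {a : G → ℤ} (h : IsTF F a) (g : G) :
    ∃! f, f ∈ F ∧ a (g - f) = 1 := by
  classical
  have h1 := h.tile g
  rw [T_apply] at h1
  obtain ⟨f, hf, hne⟩ := Finset.exists_ne_zero_of_sum_ne_zero (s := F)
    (f := fun f => a (g - (1 : ℕ) • f)) (by rw [h1]; exact one_ne_zero)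
  have hf1 : a (g - f) = 1 := by
    rw [one_smul] at hne
    exact (h.nonneg _).resolve_left hne
  refine ⟨f, ⟨hf, hf1⟩, ?_⟩
  rintro f' ⟨hf', hf1'⟩
  by_contra hne'
  have h2 : ∑ x ∈ ({f', f} : Finset G), a (g - (1 : ℕ) • x) ≤ ∑ x ∈ F, a (g - (1 : ℕ) • x) := by
    apply Finset.sum_le_sum_of_subset_of_nonneg
    · intro x hx
      rcases Finset.mem_insert.1 hx with rfl | hx
      · exact hf'
      · rw [Finset.mem_singleton.1 hx]
        exact hf
    · intro i _ _
      exact h.a_nonneg _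
  rw [Finset.sum_pair hne', h1, one_smul, one_smul, hf1, hf1'] at h2
  omega

/-- Main theorem in a finitely generated group generated by the tile. -/
theorem main_gen [Module.Finite ℤ G] {F : Finset G} {q : ℕ} (hq : q.Prime) (hq2 : q ≠ 2)
    (hF : F.card = 2 * q) (h0 : (0 : G) ∈ F) (hgen : AddSubgroup.closure (F : Set G) = ⊤)
    {A : Set G} (hA : ∀ g, ∃! f, f ∈ F ∧ g - f ∈ A) :
    ∃ A' : Set G, (∀ g, ∃! f, f ∈ F ∧ g - f ∈ A') ∧
      ∃ M : ℕ, 0 < M ∧ ∀ g k, g + M • k ∈ A' ↔ g ∈ A' := by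
  classical
  by_contra hno
  set a : G → ℤ := A.indicator (fun _ => (1 : ℤ)) with ha
  have hTF : IsTF F a := isTF_ind hA
  have hq1 := hq.one_lt
  have hc : 1 < F.card := by omega
  set N := bigN F q with hN
  have hqodd : Odd q := hq.odd_of_ne_two hq2
  have hNodd : Odd N := bigN_odd F hqodd
  have hN0 : N ≠ 0 := hNodd.pos.ne'
  obtain ⟨b, m, hqm, hNbm⟩ := Nat.exists_eq_pow_mul_and_not_dvd hN0 q hq1.ne'
  have hqN : q ∣ N := Dvd.intro _ rfl
  have hb1 : 1 ≤ b := by
    by_contra hcon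
    have hb0 : b = 0 := by omega
    rw [hb0, pow_zero, one_mul] at hNbm
    exact hqm (hNbm ▸ hqN)
  have hmodd : Odd m := by
    rw [hNbm] at hNodd
    exact (Nat.odd_mul.1 hNodd).2
  have hmc : Nat.Coprime m (2 * q) := by
    apply Nat.Coprime.mul_right
    · exact Nat.coprime_two_right.2 hmodd
    · rw [Nat.coprime_comm, hq.coprime_iff_not_dvd]
      exact hqm
  have hmc' : Nat.Coprime m F.card := by rw [hF]; exact hmc
  set t' := q ^ b * m with ht'
  -- periodicity of the counting function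
  let ψ : G → ℚ := fun g => ((T F t' a g : ℤ) : ℚ) - 1
  have hbd : ∀ g, |ψ g| ≤ (q : ℚ) + 1 := by
    intro g
    rcases hTF.T_val hq hq2 hF hb1 hmc g with h1 | h1
    · simp only [ψ]
      rw [h1]
      have : (0 : ℚ) ≤ q := by positivity
      rw [abs_le]
      constructor <;> push_cast <;> linarith
    · simp only [ψ]
      rw [h1]
      have : (1 : ℚ) ≤ q := by exact_mod_cast hq.pos
      rw [abs_le]
      constructor <;> push_cast <;> linarith
  have hann : ∀ s : ℕ, 1 ≤ s → ¬ q ∣ s → T F s ψ = 0 := by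
    intro s hs hqs
    funext g
    have h1 := hTF.T_T_eq_card hq hq2 hF hb1 hmc hs hqs g
    simp only [T_apply, ψ, Pi.zero_apply] at h1 ⊢
    rw [Finset.sum_sub_distrib]
    have h2 : (∑ f ∈ F, (((∑ f' ∈ F, a (g - s • f - t' • f')) : ℤ) : ℚ)) = 2 * q := by
      exact_mod_cast h1
    rw [h2]
    simp [hF]
  have hper : ∀ g w, T F t' a (g + N • w) = T F t' a g := by
    intro g w
    have h1 := radical_mem hq hq2 hF h0 hgen hno (-w)
    have h2 := periodic_of_radical hbd hann h1 (g)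
    have h3 : g - N • (-w) = g + N • w := by rw [smul_neg, sub_neg_eq_add]
    rw [h3] at h2
    simp only [ψ] at h2
    have h4 : ((T F t' a (g + N • w) : ℤ) : ℚ) = ((T F t' a g : ℤ) : ℚ) := by linarith
    exact_mod_cast h4
  -- the section
  set a1 : G → ℤ := fun w => a (m • w) with ha1
  have hTF1 : IsTF F a1 := hTF.section_isTF hc hmc'
  set t := q ^ b * 1 with ht
  have ht1 : Nat.Coprime 1 (2 * q) := by simp
  have hsec : ∀ x, T F t a1 x = T F t' a (m • x) := by
    intro x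
    have h1 := IsTF.T_section (F := F) (a := a) m t x
    have h2 : m * t = t' := by rw [ht, ht']; ring
    rw [h2] at h1
    exact h1
  set b' := q ^ b with hb'
  have hb'pos : 0 < b' := pow_pos hq.pos b
  have hinvT : ∀ x k, T F t a1 (x + b' • k) = T F t a1 x := by
    intro x k
    rw [hsec, hsec]
    have h1 : m • (x + b' • k) = m • x + N • k := by
      rw [smul_add, ← mul_smul, hNbm, mul_comm m b']
    rw [h1, hper]
  have hval : ∀ x, T F t a1 x = 0 ∨ T F t a1 x = q := fun x =>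
    hTF1.T_val hq hq2 hF hb1 ht1 x
  set C : Set G := {x | T F t a1 x = q} with hC
  have hCinv : ∀ x k, x + b' • k ∈ C ↔ x ∈ C := by
    intro x k
    show T F t a1 _ = _ ↔ T F t a1 _ = _
    rw [hinvT]
  have hA1C : ∀ x, a1 x = 1 → x ∈ C := by
    intro x hx
    rcases hval x with h1 | h1
    · exfalso
      have h2 : a1 (x - t • (0 : G)) ≤ T F t a1 x :=
        Finset.single_le_sum (f := fun y => a1 (x - t • y)) (fun i _ => hTF1.a_nonneg _) h0
      rw [smul_zero, sub_zero, hx, h1] at h2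
      omega
    · exact h1
  have hqne : (q : ℤ) ≠ 0 := by exact_mod_cast hq.ne_zero
  have hcount : ∀ g, (F.filter (fun f => g - f ∈ C)).card = 2 := by
    intro g
    have h1 : T F 1 (T F t a1) g = 2 * q := hTF1.T_T_eq_card hq hq2 hF hb1 ht1 (s := 1) (le_refl 1)
      (fun hd => hq.one_lt.ne' (Nat.dvd_one.1 hd)) g
    rw [T_apply] at h1
    have h2 : ∀ f, T F t a1 (g - (1 : ℕ) • f) = (q : ℤ) * (if g - f ∈ C then 1 else 0) := by
      intro f
      rw [one_smul]
      by_cases hfC : g - f ∈ C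
      · rw [if_pos hfC, mul_one]
        exact hfC
      · rw [if_neg hfC, mul_zero]
        exact (hval _).resolve_right hfC
    simp_rw [h2] at h1
    rw [← Finset.mul_sum] at h1
    have h3 : (∑ f ∈ F, (if g - f ∈ C then (1 : ℤ) else 0)) = 2 := by
      have h4 : (q : ℤ) * (∑ f ∈ F, (if g - f ∈ C then (1 : ℤ) else 0)) = q * 2 := by
        rw [h1]
        ring
      exact mul_left_cancel₀ hqne h4
    have h5 : ((F.filter (fun f => g - f ∈ C)).card : ℤ) = 2 := by
      rw [Finset.card_filter]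
      push_cast
      exact h3
    exact_mod_cast h5
  let Adj : G → G → Prop := fun x y => ∃ g f f', f ∈ F ∧ f' ∈ F ∧ f ≠ f' ∧ x = g - f ∧ y = g - f' ∧
    x ∈ C ∧ y ∈ C
  have hinv : ∀ x y k, Adj x y → Adj (x + b' • k) (y + b' • k) := by
    rintro x y k ⟨g, f, f', hf, hf', hne, hx, hy, hxC, hyC⟩
    refine ⟨g + b' • k, f, f', hf, hf', hne, ?_, ?_, (hCinv x k).2 hxC, (hCinv y k).2 hyC⟩
    · rw [hx]; abel
    · rw [hy]; abel
  let V : G → Bool := fun x => decide (a1 x = 1)
  have hpair : ∀ g f f', f ∈ F → f' ∈ F → f ≠ f' → g - f ∈ C → g - f' ∈ C →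
      F.filter (fun x => g - x ∈ C) = {f, f'} := by
    intro g f f' hf hf' hne hfC hf'C
    symm
    apply Finset.eq_of_subset_of_card_le
    · intro x hx
      rcases Finset.mem_insert.1 hx with rfl | hx
      · exact Finset.mem_filter.2 ⟨hf, hfC⟩
      · rw [Finset.mem_singleton.1 hx]
        exact Finset.mem_filter.2 ⟨hf', hf'C⟩
    · rw [hcount, Finset.card_pair hne]
  have hV : ∀ x y, Adj x y → V x ≠ V y := by
    rintro x y ⟨g, f, f', hf, hf', hne, rfl, rfl, hxC, hyC⟩
    obtain ⟨f2, ⟨hf2, hf2a⟩, huniq⟩ := hTF1.exists_unique g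
    have hmem : f2 ∈ F.filter (fun x => g - x ∈ C) := Finset.mem_filter.2 ⟨hf2, hA1C _ hf2a⟩
    rw [hpair g f f' hf hf' hne hxC hyC] at hmem
    simp only [V]
    rcases Finset.mem_insert.1 hmem with rfl | hmem
    · have h3 : ¬ a1 (g - f') = 1 := fun h => hne (huniq f' ⟨hf', h⟩).symm
      simp [hf2a, h3]
    · rw [Finset.mem_singleton.1 hmem] at hf2a huniq
      have h3 : ¬ a1 (g - f) = 1 := fun h => hne (huniq f ⟨hf, h⟩)
      simp [hf2a, h3]
  obtain ⟨M, hM, hbM, V', hV', hperV⟩ := periodic_coloring hb'pos hinv hV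
  apply hno
  refine ⟨{x | x ∈ C ∧ V' x = true}, ?_, M, hM, ?_⟩
  · intro g
    obtain ⟨f1, f2, hne, hS⟩ := Finset.card_eq_two.1 (hcount g)
    have hf1 : f1 ∈ F.filter (fun x => g - x ∈ C) := by rw [hS]; simp
    have hf2 : f2 ∈ F.filter (fun x => g - x ∈ C) := by rw [hS]; simp
    obtain ⟨hf1F, hf1C⟩ := Finset.mem_filter.1 hf1
    obtain ⟨hf2F, hf2C⟩ := Finset.mem_filter.1 hf2
    have hadj : Adj (g - f1) (g - f2) := ⟨g, f1, f2, hf1F, hf2F, hne, rfl, rfl, hf1C, hf2C⟩
    have hdiff := hV' _ _ hadj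
    have hcases : ∀ f, f ∈ F → g - f ∈ C → f = f1 ∨ f = f2 := by
      intro f hf hfC
      have : f ∈ F.filter (fun x => g - x ∈ C) := Finset.mem_filter.2 ⟨hf, hfC⟩
      rw [hS] at this
      simpa using this
    cases h1 : V' (g - f1) with
    | true =>
      refine ⟨f1, ⟨hf1F, hf1C, h1⟩, ?_⟩
      rintro f ⟨hf, hfC, hfV⟩
      rcases hcases f hf hfC with rfl | rfl
      · rfl
      · rw [h1, hfV] at hdiff
        exact absurd rfl hdiff
    | false =>
      have h2 : V' (g - f2) = true := by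
        cases h3 : V' (g - f2) with
        | true => rfl
        | false =>
          rw [h1, h3] at hdiff
          exact absurd rfl hdiff
      refine ⟨f2, ⟨hf2F, hf2C, h2⟩, ?_⟩
      rintro f ⟨hf, hfC, hfV⟩
      rcases hcases f hf hfC with rfl | rfl
      · rw [h1] at hfV
        exact absurd hfV (by simp)
      · rfl
  · intro g k
    obtain ⟨d, hd⟩ := hbM
    have h1 : M • k = b' • (d • k) := by rw [hd, mul_smul]
    simp only [Set.mem_ofPred_eq]
    rw [hperV, h1, hCinv]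

end Vale.Agent.Lib.P043
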