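import Vale.Agent.Lib.P043.Basic

/-!
Bounded functions killed by an ideal: periodicity from membership in the radical.
-/

namespace Vale.Agent.Lib.P043

open Finset

variable {G : Type*} [AddCommGroup G]

/-- The ideal of the rational group algebra generated by the dilates of `F`
with scale not divisible by `q`. -/
noncomputable def J (F : Finset G) (q : ℕ) : Ideal (AddMonoidAlgebra ℚ G) :=
  Ideal.span {x | ∃ s : ℕ, 1 ≤ s ∧ ¬ q ∣ s ∧ x = E ℚ F s}

lemma J_annihilates {F : Finset G} {q : ℕ} {ψ : G → ℚ}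
    (hψ : ∀ s : ℕ, 1 ≤ s → ¬ q ∣ s → T F s ψ = 0) {r : AddMonoidAlgebra ℚ G} (hr : r ∈ J F q) :
    act ℚ r ψ = 0 := by
  unfold J at hr
  induction hr using Submodule.span_induction with
  | mem x hx =>
    obtain ⟨s, hs, hqs, rfl⟩ := hx
    rw [act_E, hψ s hs hqs]
  | zero => simp
  | add x y _ _ hx hy => simp [hx, hy]
  | smul a x _ hx =>
    rw [smul_eq_mul, map_mul, Module.End.mul_apply, hx, map_zero]

/-- The difference operator along `w`. -/
noncomputable def D (w : G) : Module.End ℚ (G → ℚ) :=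
  act ℚ (AddMonoidAlgebra.single w 1 - 1)

lemma D_apply (w : G) (φ : G → ℚ) (g : G) : D w φ g = φ (g - w) - φ g := by
  have h1 : (1 : AddMonoidAlgebra ℚ G) = AddMonoidAlgebra.single 0 1 := rfl
  simp only [D, map_sub, LinearMap.sub_apply, Pi.sub_apply]
  rw [act_single, h1, act_single]
  simp

lemma two_step {w : G} {φ : G → ℚ} {B : ℚ} (hb : ∀ g, |φ g| ≤ B) (h : D w (D w φ) = 0) :
    D w φ = 0 := by
  have hc : ∀ g, D w φ (g - w) = D w φ g := by
    intro g
    have := congrFun h g
    rw [D_apply] at this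
    simp only [Pi.zero_apply] at this
    linarith
  have hj : ∀ (j : ℕ) (g : G), D w φ (g - j • w) = D w φ g := by
    intro j
    induction j with
    | zero => simp
    | succ j ih =>
      intro g
      have : g - (j + 1) • w = (g - j • w) - w := by
        rw [add_smul, one_smul]
        abel
      rw [this, hc, ih]
  have hphi : ∀ (j : ℕ) (g : G), φ (g - j • w) = φ g + j * D w φ g := by
    intro j
    induction j with
    | zero => simp
    | succ j ih =>
      intro g
      have h1 : g - (j + 1) • w = (g - j • w) - w := by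
        rw [add_smul, one_smul]
        abel
      have h2 := D_apply w φ (g - j • w)
      rw [hj] at h2
      rw [h1]
      have h3 : φ (g - j • w - w) = φ (g - j • w) + D w φ g := by linarith
      rw [h3, ih]
      push_cast
      ring
  funext g
  by_contra hne
  have hne' : D w φ g ≠ 0 := hne
  have hpos : 0 < |D w φ g| := abs_pos.2 hne'
  obtain ⟨j, hj'⟩ := exists_nat_gt (2 * B / |D w φ g|)
  have h3 : 2 * B < j * |D w φ g| := by
    rwa [div_lt_iff₀ hpos] at hj'
  have h4 := hphi j g
  have h5 : |(j : ℚ) * D w φ g| ≤ 2 * B := by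
    have h6 : (j : ℚ) * D w φ g = φ (g - j • w) - φ g := by rw [h4]; ring
    rw [h6]
    calc |φ (g - j • w) - φ g| ≤ |φ (g - j • w)| + |φ g| := abs_sub _ _
      _ ≤ 2 * B := by linarith [hb (g - j • w), hb g]
  rw [abs_mul, Nat.abs_cast] at h5
  linarith

lemma D_bounded {w : G} {φ : G → ℚ} {B : ℚ} (hb : ∀ g, |φ g| ≤ B) (g : G) :
    |D w φ g| ≤ 2 * B := by
  rw [D_apply]
  calc |φ (g - w) - φ g| ≤ |φ (g - w)| + |φ g| := abs_sub _ _
    _ ≤ 2 * B := by linarith [hb (g - w), hb g]

lemma D_pow_zero {w : G} (k : ℕ) : ∀ {φ : G → ℚ} {B : ℚ}, (∀ g, |φ g| ≤ B) →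
    ((D w) ^ k) φ = 0 → D w φ = 0 := by
  induction k with
  | zero =>
    intro φ B _ h
    simp only [pow_zero, Module.End.one_apply] at h
    rw [h, map_zero]
  | succ k ih =>
    intro φ B hb h
    rcases Nat.eq_zero_or_pos k with hk | hk
    · subst hk
      simpa using h
    · obtain ⟨l, rfl⟩ : ∃ l, k = l + 1 := ⟨k - 1, by omega⟩
      -- apply the two step lemma to the `l`-th iterate
      have hbd : ∀ l : ℕ, ∃ C : ℚ, ∀ g, |((D w) ^ l) φ g| ≤ C := by
        intro l
        induction l with
        | zero => exact ⟨B, by simpa using hb⟩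
        | succ l ih2 =>
          obtain ⟨C, hC⟩ := ih2
          refine ⟨2 * C, fun g => ?_⟩
          rw [pow_succ', Module.End.mul_apply]
          exact D_bounded hC g
      obtain ⟨C, hC⟩ := hbd l
      have h2 : D w (D w (((D w) ^ l) φ)) = 0 := by
        rw [pow_succ', pow_succ', Module.End.mul_apply, Module.End.mul_apply] at h
        exact h
      have h3 := two_step hC h2
      refine ih hb ?_
      rw [pow_succ', Module.End.mul_apply]
      exact h3

/-- Periodicity from membership in the radical of `J`. -/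
lemma periodic_of_radical {F : Finset G} {q : ℕ} {ψ : G → ℚ} {B : ℚ} (hb : ∀ g, |ψ g| ≤ B)
    (hψ : ∀ s : ℕ, 1 ≤ s → ¬ q ∣ s → T F s ψ = 0) {w : G}
    (hw : (AddMonoidAlgebra.single w 1 - 1 : AddMonoidAlgebra ℚ G) ∈ (J F q).radical) (g : G) :
    ψ (g - w) = ψ g := by
  obtain ⟨k, hk⟩ := hw
  have h1 := J_annihilates hψ hk
  rw [map_pow] at h1
  have h2 := D_pow_zero (w := w) k hb h1
  have h3 := congrFun h2 g
  rw [D_apply] at h3
  simp only [Pi.zero_apply] at h3
  linarith

end Vale.Agent.Lib.P043
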